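import Vale.Agent.P216.H494.Dict

/-!
P216: a closed geodesic reversed by an isometry which is joined to the identity by isometries.
-/

namespace Vale.Agent.P216.R2.H930

open Set Vale.Agent.P216.H494

variable {M : Type*} [MetricSpace M]

/-- A geodesic is not symmetric about any parameter. -/
theorem not_symm {c : ℝ → M} (hc : IsGeodesicWithSpeed c 1) (u : ℝ) :
    ¬ ∀ t, c t = c (u - t) := by
  intro h
  obtain ⟨ε, hε, H⟩ := hc (u / 2)
  have h1 := H (u / 2 + ε / 2) (u / 2 - ε / 2)
    (by rw [show u / 2 + ε / 2 - u / 2 = ε / 2 by ring, abs_of_pos (by positivity)]; linarith)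
    (by rw [show u / 2 - ε / 2 - u / 2 = -(ε / 2) by ring, abs_neg,
      abs_of_pos (by positivity)]; linarith)
  rw [h (u / 2 + ε / 2), show u - (u / 2 + ε / 2) = u / 2 - ε / 2 by ring, dist_self,
    show u / 2 + ε / 2 - (u / 2 - ε / 2) = ε by ring, abs_of_pos hε] at h1
  linarith

/-- Two parametrizations of opposite directions do not agree. -/
theorem no_flip {c : ℝ → M} (hc : IsGeodesicWithSpeed c 1) {e : ℝ} (he : e = 1 ∨ e = -1)
    (b b' : ℝ) : ¬ ∀ t, c (e * t + b) = c (-e * t + b') := by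
  intro h
  refine not_symm hc (b + b') fun u => ?_
  have h1 := h (e * (u - b))
  have h2 : e * e = 1 := by rcases he with rfl | rfl <;> norm_num
  rw [show e * (e * (u - b)) + b = (e * e) * (u - b) + b by ring,
    show -e * (e * (u - b)) + b' = -(e * e) * (u - b) + b' by ring, h2] at h1
  rw [show (1 : ℝ) * (u - b) + b = u by ring, show -1 * (u - b) + b' = b + b' - u by ring] at h1
  exact h1

theorem range_affine {c : ℝ → M} {e : ℝ} (he : e = 1 ∨ e = -1) (b : ℝ) :
    range (fun t => c (e * t + b)) = range c := by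
  have h2 : e * e = 1 := by rcases he with rfl | rfl <;> norm_num
  ext x
  constructor
  · rintro ⟨t, rfl⟩; exact ⟨_, rfl⟩
  · rintro ⟨u, rfl⟩
    refine ⟨e * (u - b), ?_⟩
    show c (e * (e * (u - b)) + b) = c u
    rw [show e * (e * (u - b)) + b = (e * e) * (u - b) + b by ring, h2]
    congr 1
    ring

/-- The two directions. -/
noncomputable def sg (b : Bool) : ℝ := if b then 1 else -1

theorem sg_or (b : Bool) : sg b = 1 ∨ sg b = -1 := by
  cases b <;> simp [sg]

theorem sg_ne {b b' : Bool} (h : b ≠ b') : sg b' = - sg b := by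
  cases b <;> cases b' <;> simp_all [sg]

/-- The parameters at which the moved geodesic runs along the `k`-th closed geodesic. -/
def Ak (G : GeoList M) (g : unitInterval → M → M) (c : ℝ → M) (k : G.ι × Bool) :
    Set unitInterval :=
  {s | ∃ b ∈ Icc 0 (G.ℓ k.1), ∀ t, g s (c t) = G.c k.1 (sg k.2 * t + b)}

variable {G : GeoList M} {g : unitInterval → M → M} {c : ℝ → M}

theorem Ak_closed (hg : ∀ x, Continuous fun s => g s x) (k : G.ι × Bool) :
    IsClosed (Ak G g c k) := by
  have e : Ak G g c k = Prod.fst '' {p : unitInterval × ℝ | p.2 ∈ Icc 0 (G.ℓ k.1) ∧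
      ∀ t, g p.1 (c t) = G.c k.1 (sg k.2 * t + p.2)} := by
    ext s
    constructor
    · rintro ⟨b, hb, h⟩; exact ⟨(s, b), ⟨hb, h⟩, rfl⟩
    · rintro ⟨⟨s', b⟩, ⟨hb, h⟩, rfl⟩; exact ⟨b, hb, h⟩
  rw [e]
  refine IsCompact.isClosed (IsCompact.image ?_ continuous_fst)
  refine IsCompact.of_isClosed_subset (isCompact_univ.prod isCompact_Icc)
    (s := (univ : Set unitInterval) ×ˢ Icc 0 (G.ℓ k.1)) ?_ fun p hp => ⟨mem_univ _, hp.1⟩
  have e2 : IsClosed {p : unitInterval × ℝ |
      ∀ t, g p.1 (c t) = G.c k.1 (sg k.2 * t + p.2)} := by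
    rw [setOf_forall]
    refine isClosed_iInter fun t => ?_
    have h1 : Continuous fun p : unitInterval × ℝ => g p.1 (c t) := (hg (c t)).comp continuous_fst
    have h2 : Continuous fun p : unitInterval × ℝ => G.c k.1 (sg k.2 * t + p.2) :=
      (G.geo k.1).continuous.comp (continuous_const.add continuous_snd)
    exact isClosed_eq h1 h2
  exact (isClosed_Icc.preimage continuous_snd).inter e2

theorem Ak_inj {k k' : G.ι × Bool} {s : unitInterval} (h : s ∈ Ak G g c k)
    (h' : s ∈ Ak G g c k') : k = k' := by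
  obtain ⟨b, -, hb⟩ := h
  obtain ⟨b', -, hb'⟩ := h'
  have h1 : k.1 = k'.1 := by
    apply G.inj
    rw [← range_affine (c := G.c k.1) (sg_or k.2) b, ← range_affine (c := G.c k'.1) (sg_or k'.2) b']
    congr 1
    funext t
    rw [← hb, ← hb']
  refine Prod.ext h1 ?_
  by_contra h2
  refine no_flip (G.geo k.1) (sg_or k.2) b b' fun t => ?_
  rw [← hb, ← sg_ne h2, hb', h1]

theorem Ak_cover (hi : ∀ s, Isometry (g s)) {P : ℝ} (hP : 0 < P) (hc : IsGeodesicWithSpeed c 1)
    (hper : Function.Periodic c P) (s : unitInterval) : ∃ k, s ∈ Ak G g c k := by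
  have h1 : IsGeodesicWithSpeed (fun t => g s (c t)) 1 := by
    intro t
    obtain ⟨ε, hε, H⟩ := hc t
    exact ⟨ε, hε, fun a a' ha ha' => by rw [(hi s).dist_eq]; exact H a a' ha ha'⟩
  have h2 : Function.Periodic (fun t => g s (c t)) P := fun t => by simp only [hper t]
  obtain ⟨j, e, he, b, hb⟩ := G.all _ h1 P hP h2
  have hℓ := G.ℓ_pos j
  have h3 : ∀ x, G.c j (x + b) = G.c j (x + G.ℓ j * Int.fract (b / G.ℓ j)) := by
    intro x
    have h4 : x + b = x + G.ℓ j * Int.fract (b / G.ℓ j) + (⌊b / G.ℓ j⌋ : ℝ) * G.ℓ j := by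
      have h5 : b = G.ℓ j * (b / G.ℓ j) := by field_simp
      have h6 := Int.floor_add_fract (b / G.ℓ j)
      rw [add_assoc, mul_comm (⌊b / G.ℓ j⌋ : ℝ), ← mul_add, add_comm (Int.fract _), h6, ← h5]
    rw [h4]
    exact (G.per j).int_mul _ _
  have h4 : G.ℓ j * Int.fract (b / G.ℓ j) ∈ Icc 0 (G.ℓ j) := by
    have h5 := Int.fract_nonneg (b / G.ℓ j)
    have h6 := (Int.fract_lt_one (b / G.ℓ j)).le
    exact ⟨by positivity, by nlinarith⟩
  rcases he with rfl | rfl
  · refine ⟨(j, true), _, h4, fun t => ?_⟩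
    show _ = G.c j (sg true * t + _)
    rw [← h3, show sg true = 1 from if_pos rfl]
    exact hb t
  · refine ⟨(j, false), _, h4, fun t => ?_⟩
    show _ = G.c j (sg false * t + _)
    rw [← h3, show sg false = -1 by simp [sg]]
    exact hb t

/-- With finitely many closed geodesics, an isometry joined to the identity slides every closed
geodesic along itself. -/
theorem infinite_of_moved (hNB : NonBranching M) (hi : ∀ s, Isometry (g s))
    (hg : ∀ x, Continuous fun s => g s x) (h0 : ∀ x, g 0 x = x) {P : ℝ} (hP : 0 < P)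
    (hc : IsGeodesicWithSpeed c 1) (hper : Function.Periodic c P)
    (hmov : ∀ a, ∃ t, g 1 (c t) ≠ c (t + a)) : (primeClosedGeodesicImages M).Infinite := by
  intro hfin
  obtain ⟨G⟩ := exists_geoList hNB hfin
  have := G.fin
  have hcov := Ak_cover (G := G) hi hP hc hper
  choose f hf using hcov
  letI : TopologicalSpace (G.ι × Bool) := ⊥
  have : DiscreteTopology (G.ι × Bool) := ⟨rfl⟩
  have hpre : ∀ k, f ⁻¹' {k} = Ak G g c k := by
    intro k
    ext s
    constructor
    · intro h
      have h1 : f s = k := h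
      rw [← h1]; exact hf s
    · intro h
      exact Ak_inj (hf s) h
  have hcont : Continuous f := by
    refine continuous_iff_isClosed.2 fun T _ => ?_
    have e : f ⁻¹' T = ⋃ k ∈ T, f ⁻¹' {k} := by
      ext s
      simp
    rw [e]
    exact (Set.toFinite T).isClosed_biUnion fun k _ => by rw [hpre]; exact Ak_closed hg k
  have h01 : f 0 = f 1 := PreconnectedSpace.constant inferInstance hcont
  obtain ⟨b0, -, hb0⟩ := hf 0
  obtain ⟨b1, -, hb1⟩ := hf 1
  rw [← h01] at hb1
  have he : sg (f 0).2 * sg (f 0).2 = 1 := by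
    rcases sg_or (f 0).2 with h | h <;> rw [h] <;> norm_num
  obtain ⟨t, ht⟩ := hmov (sg (f 0).2 * (b1 - b0))
  apply ht
  have h1 := hb0 (t + sg (f 0).2 * (b1 - b0))
  rw [h0] at h1
  rw [hb1, h1, show sg (f 0).2 * (t + sg (f 0).2 * (b1 - b0)) + b0 =
    sg (f 0).2 * t + (sg (f 0).2 * sg (f 0).2) * (b1 - b0) + b0 by ring, he]
  congr 1
  ring

/-- The reversal principle. -/
theorem infinite_of_reversed (hNB : NonBranching M) (hi : ∀ s, Isometry (g s))
    (hg : ∀ x, Continuous fun s => g s x) (h0 : ∀ x, g 0 x = x) {P : ℝ} (hP : 0 < P)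
    (hc : IsGeodesicWithSpeed c 1) (hper : Function.Periodic c P)
    (hrev : ∀ t, g 1 (c t) = c (-t)) : (primeClosedGeodesicImages M).Infinite := by
  refine infinite_of_moved hNB hi hg h0 hP hc hper fun a => ?_
  by_contra h
  push Not at h
  refine not_symm hc a fun t => ?_
  have h1 := h (-t)
  rw [hrev, neg_neg] at h1
  rw [h1]
  congr 1
  ring

end Vale.Agent.P216.R2.H930
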