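import Vale.Agent.P216.R2.H930.Min
import Vale.Agent.P216.R2.H930.Rev

/-!
P216: involutions with separate fixed point sets, circle actions with disconnected fixed point
set, on metric spaces with unique short segments.
-/

namespace Vale.Agent.P216.R2.H930

open Set Topology Vale.Agent.P216.H494

variable {M : Type*} [MetricSpace M]

theorem exists_gap {A F : Set M} [CompactSpace M] (hA : IsClosed A) (hF : IsClosed F)
    (h : Disjoint A F) : ∃ r : ℝ, 0 < r ∧ ∀ x ∈ A, ∀ y ∈ F, r ≤ dist x y := by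
  obtain ⟨δ, hδ, h1⟩ := h.exists_thickenings hA.isCompact hF
  refine ⟨δ, hδ, fun x hx y hy => ?_⟩
  by_contra h2
  rw [not_le] at h2
  exact Set.disjoint_left.1 h1
    (Metric.mem_thickening_iff.2 ⟨x, hx, by rwa [dist_comm]⟩)
    (Metric.self_subset_thickening hδ F hy)

theorem joinedIn_univ (h : HasSegments M) (x y : M) : JoinedIn (univ : Set M) x y := by
  obtain ⟨γ, h0, h1, h2⟩ := h x y
  have hd : 0 ≤ dist x y := dist_nonneg
  refine JoinedIn.ofLine (f := fun t => γ (t * dist x y)) ?_ ?_ ?_ (subset_univ _)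
  · refine LipschitzOnWith.continuousOn (K := Real.toNNReal (dist x y)) ?_
    refine LipschitzOnWith.of_dist_le_mul fun s hs t ht => ?_
    have ms : s * dist x y ∈ Icc 0 (dist x y) :=
      ⟨mul_nonneg hs.1 hd, mul_le_of_le_one_left hd hs.2⟩
    have mt : t * dist x y ∈ Icc 0 (dist x y) :=
      ⟨mul_nonneg ht.1 hd, mul_le_of_le_one_left hd ht.2⟩
    rw [h2 _ ms _ mt, Real.coe_toNNReal _ hd, ← sub_mul, abs_mul, abs_of_nonneg hd, mul_comm,
      Real.dist_eq]
  · simp only [zero_mul, h0]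
  · simp only [one_mul, h1]

theorem joinedIn_seg (S : Segs M) {N : Set M}
    (hN : ∀ x ∈ N, ∀ y ∈ N, dist x y < S.ρ → ∀ t ∈ Icc (0 : ℝ) 1, S.seg x y t ∈ N) {x y : M}
    (hx : x ∈ N) (hy : y ∈ N) (h : dist x y < S.ρ) : JoinedIn N x y := by
  have hd : 0 ≤ dist x y := dist_nonneg
  refine JoinedIn.ofLine (f := S.seg x y) ?_ (S.seg_zero x y h) (S.seg_one x y h) ?_
  · refine LipschitzOnWith.continuousOn (K := Real.toNNReal (dist x y)) ?_
    refine LipschitzOnWith.of_dist_le_mul fun s hs t ht => ?_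
    rw [S.dd x y h s hs t ht, Real.coe_toNNReal _ hd, Real.dist_eq, mul_comm]
  · rintro _ ⟨t, ht, rfl⟩
    exact hN x hx y hy h t ht

/-- Involutions with separate fixed point sets. -/
theorem infinite_of_involutions [CompactSpace M] (S : Segs M) (hS : HasSegments M)
    (hNB : NonBranching M) {σ τ : M → M} (iσ : Isometry σ) (iτ : Isometry τ)
    (hσσ : ∀ x, σ (σ x) = x) (hττ : ∀ x, τ (τ x) = x) (hc : ∀ x, σ (τ x) = τ (σ x))
    {g : unitInterval → M → M} (hi : ∀ s, Isometry (g s)) (hg : ∀ x, Continuous fun s => g s x)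
    (h0 : ∀ x, g 0 x = x) (h1 : ∀ x, g 1 x = σ x) {A B : Set M} (hA : IsClosed A)
    (hB : IsClosed B) (hAn : A.Nonempty) (hBn : B.Nonempty) (hAB : Disjoint A B)
    (hσA : ∀ x ∈ A, σ x = x) (hτB : ∀ x ∈ B, τ x = x)
    (hA' : IsClosed {x | σ x = x ∧ x ∉ A}) (hB' : IsClosed {x | τ x = x ∧ x ∉ B}) :
    (primeClosedGeodesicImages M).Infinite := by
  obtain ⟨a, ha⟩ := hAn
  obtain ⟨b, hb⟩ := hBn
  obtain ⟨r1, hr1, g1⟩ := exists_gap hA hA' (Set.disjoint_left.2 fun x hx h => h.2 hx)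
  obtain ⟨r2, hr2, g2⟩ := exists_gap hB hB' (Set.disjoint_left.2 fun x hx h => h.2 hx)
  have C : Conf S univ A B σ τ (min r1 r2) :=
    { iσ := iσ
      iτ := iτ
      cN := isClosed_univ
      cA := hA
      cB := hB
      seg := fun _ _ _ _ _ _ _ => mem_univ _
      AN := subset_univ _
      BN := subset_univ _
      disj := fun x hx hx' => Set.disjoint_left.1 hAB hx hx'
      σN := fun _ _ => mem_univ _
      τN := fun _ _ => mem_univ _
      σσ := fun x _ => hσσ x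
      ττ := fun x _ => hττ x
      comm := fun x _ => hc x
      σA := hσA
      τB := hτB
      r_pos := lt_min hr1 hr2
      isoA := fun x hx y _ hy hd => by
        by_contra h
        exact absurd (g1 x hx y ⟨hy, h⟩) (not_le.2 (hd.trans_le (min_le_left _ _)))
      isoB := fun x hx y _ hy hd => by
        by_contra h
        exact absurd (g2 x hx y ⟨hy, h⟩) (not_le.2 (hd.trans_le (min_le_right _ _))) }
  obtain ⟨c, P, hP, hgeo, hper, hrev⟩ := exists_reversed C ha hb (joinedIn_univ hS a b)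
  exact infinite_of_reversed hNB hi hg h0 hP hgeo hper fun t => by rw [h1]; exact hrev t

/-! ### Circle actions -/

/-- The fixed points of the element of order `2 ^ j`. -/
def Nj (φ : ℝ → M → M) (j : ℕ) : Set M := {x | φ (1 / 2 ^ j) x = x}

section
variable {φ : ℝ → M → M}

theorem Nj_succ (hadd : ∀ s t x, φ (s + t) x = φ s (φ t x)) (j : ℕ) : Nj φ (j + 1) ⊆ Nj φ j := by
  intro x hx
  have hx' : φ (1 / 2 ^ (j + 1)) x = x := hx
  show φ (1 / 2 ^ j) x = x
  rw [show (1 : ℝ) / 2 ^ j = 1 / 2 ^ (j + 1) + 1 / 2 ^ (j + 1) by rw [pow_succ]; field_simp; norm_num,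
    hadd, hx', hx']

theorem Nj_anti (hadd : ∀ s t x, φ (s + t) x = φ s (φ t x)) {i j : ℕ} (h : i ≤ j) :
    Nj φ j ⊆ Nj φ i := by
  induction h with
  | refl => exact subset_rfl
  | step _ ih => exact (Nj_succ hadd _).trans ih

theorem Nj_closed (hi : ∀ s, Isometry (φ s)) (j : ℕ) : IsClosed (Nj φ j) :=
  isClosed_eq (hi _).continuous continuous_id

theorem Nj_zero (h1 : ∀ x, φ 1 x = x) : Nj φ 0 = univ := by
  ext x
  simp [Nj, h1]

theorem fix_mul (hadd : ∀ s t x, φ (s + t) x = φ s (φ t x)) {s : ℝ} {x : M} (h : φ s x = x)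
    (n : ℕ) : φ (n * s) x = φ 0 x := by
  induction n with
  | zero => rw [Nat.cast_zero, zero_mul]
  | succ n ih =>
    rw [Nat.cast_succ, add_mul, one_mul, hadd, h, ih]

theorem fix_of_all (hcont : ∀ x, Continuous fun s => φ s x)
    (hadd : ∀ s t x, φ (s + t) x = φ s (φ t x)) (h0 : ∀ x, φ 0 x = x) {x : M}
    (hx : ∀ j, x ∈ Nj φ j) {s : ℝ} (hs : 0 ≤ s) : φ s x = x := by
  -- approximate `s` by `⌊2 ^ j s⌋ / 2 ^ j`
  have h1 : Filter.Tendsto (fun j : ℕ => ((⌊(2 : ℝ) ^ j * s⌋₊ : ℕ) : ℝ) * (1 / 2 ^ j))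
      Filter.atTop (𝓝 s) := by
    have h2 : Filter.Tendsto (fun y : ℝ => ((⌊y * s⌋₊ : ℕ) : ℝ) / y) Filter.atTop (𝓝 s) := by
      simpa [mul_comm] using tendsto_nat_floor_mul_div_atTop hs
    have h3 : Filter.Tendsto (fun j : ℕ => (2 : ℝ) ^ j) Filter.atTop Filter.atTop :=
      tendsto_pow_atTop_atTop_of_one_lt one_lt_two
    have h4 := h2.comp h3
    refine h4.congr fun j => ?_
    simp only [Function.comp]
    rw [div_eq_mul_one_div]
  have h2 : Filter.Tendsto (fun j : ℕ => φ (((⌊(2 : ℝ) ^ j * s⌋₊ : ℕ) : ℝ) * (1 / 2 ^ j)) x)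
      Filter.atTop (𝓝 (φ s x)) := ((hcont x).tendsto s).comp h1
  have h3 : ∀ j : ℕ, φ (((⌊(2 : ℝ) ^ j * s⌋₊ : ℕ) : ℝ) * (1 / 2 ^ j)) x = x := fun j => by
    rw [fix_mul hadd (hx j), h0]
  simp only [h3] at h2
  exact tendsto_nhds_unique h2 tendsto_const_nhds

/-- Circle actions with disconnected fixed point set. -/
theorem infinite_of_circle [CompactSpace M] (S : Segs M) (hS : HasSegments M)
    (hNB : NonBranching M) (hi : ∀ s, Isometry (φ s)) (hcont : ∀ x, Continuous fun s => φ s x)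
    (hadd : ∀ s t x, φ (s + t) x = φ s (φ t x)) (h1 : ∀ x, φ 1 x = x)
    (hF : ¬ IsPreconnected {x | ∀ s, φ s x = x}) :
    (primeClosedGeodesicImages M).Infinite := by
  have h0 : ∀ x, φ 0 x = x := fun x => by
    have h2 := hadd 0 1 x
    rw [zero_add, h1] at h2
    exact h2.symm
  have hcomm : ∀ s t x, φ s (φ t x) = φ t (φ s x) := fun s t x => by
    rw [← hadd, add_comm, hadd]
  have hneg : ∀ s x, φ s (φ (-s) x) = x := fun s x => by
    rw [← hadd, add_neg_cancel, h0]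
  obtain ⟨F, hFd⟩ : ∃ F : Set M, F = {x | ∀ s, φ s x = x} := ⟨_, rfl⟩
  rw [← hFd] at hF
  have hFc : IsClosed F := by
    rw [hFd, setOf_forall]
    exact isClosed_iInter fun s => isClosed_eq (hi s).continuous continuous_id
  have hFN : ∀ j, F ⊆ Nj φ j := fun j x hx => by
    rw [hFd] at hx
    exact hx _
  have hNF : ∀ x, (∀ j, x ∈ Nj φ j) → x ∈ F := by
    intro x hx
    rw [hFd]
    intro s
    rcases le_total 0 s with hs | hs
    · exact fix_of_all hcont hadd h0 hx hs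
    · have h2 := fix_of_all hcont hadd h0 hx (neg_nonneg.2 hs)
      have h3 := hneg s x
      rwa [h2] at h3
  -- the two parts of the fixed point set
  rw [isPreconnected_closed_iff] at hF
  push Not at hF
  obtain ⟨T, T', hT, hT', hsub, ⟨a, haF, haT⟩, ⟨b, hbF, hbT⟩, hemp⟩ := hF
  have hsep : ∃ j, ¬ JoinedIn (Nj φ j) a b := by
    by_contra hall
    push Not at hall
    have hd : Disjoint (F ∩ T) (F ∩ T') := by
      rw [Set.disjoint_left]
      rintro x ⟨hx, hx1⟩ ⟨-, hx2⟩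
      have h2 : x ∈ F ∩ (T ∩ T') := ⟨hx, hx1, hx2⟩
      rw [hemp] at h2
      exact h2
    obtain ⟨U, V, hU, hV, hTU, hTV, hUV⟩ :=
      SeparatedNhds.of_isCompact_isCompact (hFc.inter hT).isCompact (hFc.inter hT').isCompact hd
    obtain ⟨j, hj⟩ := exists_subset_nhds_of_isCompact' (V := fun j => Nj φ j) (U := U ∪ V)
      (directed_of_isDirected_le fun i j h => Nj_anti hadd h)
      (fun j => (Nj_closed hi j).isCompact) (fun j => Nj_closed hi j) (fun x hx => by
        rw [mem_iInter] at hx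
        refine (hU.union hV).mem_nhds ?_
        rcases hsub (hNF x hx) with h2 | h2
        · exact Or.inl (hTU ⟨hNF x hx, h2⟩)
        · exact Or.inr (hTV ⟨hNF x hx, h2⟩))
    obtain ⟨γ, hγ⟩ := hall j
    have hpc : IsPreconnected (range γ) := isPreconnected_range γ.continuous
    have hsubU : range γ ⊆ U := hpc.subset_left_of_subset_union hU hV hUV
      (by rintro _ ⟨t, rfl⟩; exact hj (hγ t)) ⟨a, ⟨0, γ.source⟩, hTU ⟨haF, haT⟩⟩
    exact Set.disjoint_left.1 hUV (hsubU ⟨1, γ.target⟩) (hTV ⟨hbF, hbT⟩)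
  obtain ⟨j, hj1, hj2⟩ : ∃ j, JoinedIn (Nj φ j) a b ∧ ¬ JoinedIn (Nj φ (j + 1)) a b := by
    classical
    have hm : ∀ i < Nat.find hsep, ¬ ¬ JoinedIn (Nj φ i) a b := fun i hi' =>
      Nat.find_min hsep hi'
    have hs := Nat.find_spec hsep
    rcases Nat.eq_zero_or_pos (Nat.find hsep) with hz | hz
    · rw [hz, Nj_zero h1] at hs
      exact absurd (joinedIn_univ hS a b) hs
    · refine ⟨Nat.find hsep - 1, not_not.1 (hm _ (by omega)), ?_⟩
      rwa [show Nat.find hsep - 1 + 1 = Nat.find hsep by omega]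
  -- the involution
  obtain ⟨θ, hθ⟩ : ∃ θ : ℝ, θ = 1 / 2 ^ (j + 1) := ⟨_, rfl⟩
  have hθ2 : θ + θ = 1 / 2 ^ j := by rw [hθ, pow_succ]; field_simp; norm_num
  have hsegN : ∀ i, ∀ x ∈ Nj φ i, ∀ y ∈ Nj φ i, dist x y < S.ρ → ∀ t ∈ Icc (0 : ℝ) 1,
      S.seg x y t ∈ Nj φ i := by
    intro i x hx y hy hd t ht
    have hx' : φ (1 / 2 ^ i) x = x := hx
    have hy' : φ (1 / 2 ^ i) y = y := hy
    show φ (1 / 2 ^ i) (S.seg x y t) = S.seg x y t
    rw [seg_nat S (hi _) hd ht, hx', hy']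
  have hfix : ∀ x, φ θ x = x ↔ x ∈ Nj φ (j + 1) := fun x => by
    rw [hθ]; exact Iff.rfl
  obtain ⟨A, hA⟩ : ∃ A : Set M, A = {x | JoinedIn (Nj φ (j + 1)) a x} := ⟨_, rfl⟩
  obtain ⟨B, hB⟩ : ∃ B : Set M, B = {x | x ∈ Nj φ (j + 1) ∧ ¬ JoinedIn (Nj φ (j + 1)) a x} :=
    ⟨_, rfl⟩
  have hAN : A ⊆ Nj φ (j + 1) := fun x hx => by rw [hA] at hx; exact hx.target_mem
  have hBN : B ⊆ Nj φ (j + 1) := fun x hx => by rw [hB] at hx; exact hx.1
  have hnear : ∀ x ∈ Nj φ (j + 1), ∀ y ∈ Nj φ (j + 1), dist x y < S.ρ →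
      JoinedIn (Nj φ (j + 1)) x y := fun x hx y hy hd => joinedIn_seg S (hsegN (j + 1)) hx hy hd
  have hA1 : ∀ x ∈ A, ∀ y ∈ Nj φ (j + 1), dist x y < S.ρ → y ∈ A := by
    intro x hx y hy hd
    have h2 := hAN hx
    rw [hA] at hx ⊢
    exact hx.trans (hnear x h2 y hy hd)
  have hB1 : ∀ x ∈ B, ∀ y ∈ Nj φ (j + 1), dist x y < S.ρ → y ∈ B := by
    intro x hx y hy hd
    have h2 := hBN hx
    rw [hB] at hx ⊢
    exact ⟨hy, fun h3 => hx.2 (h3.trans (hnear x h2 y hy hd).symm)⟩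
  have hclos : ∀ X : Set M, X ⊆ Nj φ (j + 1) →
      (∀ x ∈ X, ∀ y ∈ Nj φ (j + 1), dist x y < S.ρ → y ∈ X) → IsClosed X := by
    intro X hX hX1
    refine isClosed_of_closure_subset fun y hy => ?_
    have h2 : y ∈ Nj φ (j + 1) := closure_minimal hX (Nj_closed hi _) hy
    obtain ⟨x, hx, hd⟩ := Metric.mem_closure_iff.1 hy S.ρ S.ρ_pos
    exact hX1 x hx y h2 (by rwa [dist_comm])
  have C : Conf S (Nj φ j) A B (φ θ) (φ θ) S.ρ :=
    { iσ := hi θ
      iτ := hi θ
      cN := Nj_closed hi j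
      cA := hclos A hAN hA1
      cB := hclos B hBN hB1
      seg := hsegN j
      AN := hAN.trans (Nj_succ hadd j)
      BN := hBN.trans (Nj_succ hadd j)
      disj := fun x hx hx' => by
        rw [hA] at hx
        rw [hB] at hx'
        exact hx'.2 hx
      σN := fun x hx => by
        have hx' : φ (1 / 2 ^ j) x = x := hx
        show φ (1 / 2 ^ j) (φ θ x) = φ θ x
        rw [hcomm, hx']
      τN := fun x hx => by
        have hx' : φ (1 / 2 ^ j) x = x := hx
        show φ (1 / 2 ^ j) (φ θ x) = φ θ x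
        rw [hcomm, hx']
      σσ := fun x hx => by rw [← hadd, hθ2]; exact hx
      ττ := fun x hx => by rw [← hadd, hθ2]; exact hx
      comm := fun x _ => rfl
      σA := fun x hx => (hfix x).2 (hAN hx)
      τB := fun x hx => (hfix x).2 (hBN hx)
      r_pos := S.ρ_pos
      isoA := fun x hx y _ hy hd => hA1 x hx y ((hfix y).1 hy) hd
      isoB := fun x hx y _ hy hd => hB1 x hx y ((hfix y).1 hy) hd }
  have haA : a ∈ A := by rw [hA]; exact JoinedIn.refl (hFN _ haF)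
  have hbB : b ∈ B := by rw [hB]; exact ⟨hFN _ hbF, hj2⟩
  obtain ⟨c, P, hP, hgeo, hper, hrev⟩ := exists_reversed C haA hbB hj1
  refine infinite_of_reversed (g := fun s x => φ ((s : ℝ) * θ) x) hNB (fun s => hi _)
    (fun x => (hcont x).comp (continuous_subtype_val.mul continuous_const)) (fun x => ?_) hP hgeo
    hper fun t => ?_
  · simp only [Set.Icc.coe_zero, zero_mul]; exact h0 x
  · simp only [Set.Icc.coe_one, one_mul]; exact hrev t

end

end Vale.Agent.P216.R2.H930
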