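import Vale.Agent.P216.H494.Dict
import Vale.Agent.P216.H494.Adapter

/-!
P216: a straight chain of points which meets the fixed points of an isometric involution
orthogonally at both ends closes up to a closed geodesic, reversed by the involution.
-/

namespace Vale.Agent.P216.R2.H930

open Set Vale.Agent.P216.H494

variable {M : Type*} [MetricSpace M]

/-- Isometries map segments to segments. -/
theorem seg_nat (S : Segs M) {σ : M → M} (hσ : Isometry σ) {x y : M} (h : dist x y < S.ρ) {t : ℝ}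
    (ht : t ∈ Icc (0 : ℝ) 1) : σ (S.seg x y t) = S.seg (σ x) (σ y) t := by
  refine S.uniq _ _ (by rwa [hσ.dist_eq]) t ht _ ?_ ?_
  · rw [hσ.dist_eq, hσ.dist_eq, S.dl h ht]
  · rw [hσ.dist_eq, hσ.dist_eq, S.dr h ht]

/-- A straight chain of `n` steps of length `δ`, orthogonal to the fixed points of `σ` at the
ends. -/
structure Straight (σ : M → M) (y : ℕ → M) (n : ℕ) (δ : ℝ) : Prop where
  step : ∀ i, i < n → dist (y i) (y (i + 1)) = δ
  two : ∀ i, i + 2 ≤ n → dist (y i) (y (i + 2)) = 2 * δ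
  inv : ∀ i, i ≤ n → σ (σ (y i)) = y i
  left : σ (y 0) = y 0
  right : σ (y n) = y n
  refl0 : dist (y 1) (σ (y 1)) = 2 * δ
  refln : dist (y (n - 1)) (σ (y (n - 1))) = 2 * δ

/-- The closed polygon. -/
def Zc (σ : M → M) (y : ℕ → M) (n : ℕ) (i : ℕ) : M := if i ≤ n then y i else σ (y (2 * n - i))

section
variable {σ : M → M} {y : ℕ → M} {n : ℕ} {δ : ℝ}

theorem Zc_le {i : ℕ} (h : i ≤ n) : Zc σ y n i = y i := if_pos h

theorem Zc_ge (H : Straight σ y n δ) {i : ℕ} (h : n ≤ i) :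
    Zc σ y n i = σ (y (2 * n - i)) := by
  rcases h.eq_or_lt with rfl | h
  · rw [Zc_le le_rfl, show 2 * n - n = n by omega, H.right]
  · exact if_neg (by omega)

theorem Zc_top (H : Straight σ y n δ) : Zc σ y n (2 * n) = Zc σ y n 0 := by
  rw [Zc_ge H (by omega), Zc_le (Nat.zero_le n), Nat.sub_self, H.left]

theorem Zc_step (hσ : Isometry σ) (H : Straight σ y n δ) {r : ℕ} (hr : r < 2 * n) :
    dist (Zc σ y n r) (Zc σ y n (r + 1)) = δ := by
  rcases lt_or_ge r n with h | h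
  · rw [Zc_le h.le, Zc_le h, H.step r h]
  · rw [Zc_ge H h, Zc_ge H (by omega), hσ.dist_eq, dist_comm,
      show 2 * n - r = 2 * n - (r + 1) + 1 by omega, H.step _ (by omega)]

theorem Zc_two (hσ : Isometry σ) (H : Straight σ y n δ) {r : ℕ} (hr : r + 2 ≤ 2 * n) :
    dist (Zc σ y n r) (Zc σ y n (r + 2)) = 2 * δ := by
  rcases lt_or_ge n (r + 2) with h | h
  · rcases lt_or_ge r n with h1 | h1
    · rw [Zc_le h1.le, Zc_ge H (by omega), show r = n - 1 by omega,
        show 2 * n - (n - 1 + 2) = n - 1 by omega, H.refln]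
    · rw [Zc_ge H h1, Zc_ge H (by omega), hσ.dist_eq, dist_comm,
        show 2 * n - r = 2 * n - (r + 2) + 2 by omega, H.two _ (by omega)]
  · rw [Zc_le (by omega), Zc_le h, H.two r h]

theorem Zc_rev (H : Straight σ y n δ) {j : ℕ} (hj : j ≤ 2 * n) :
    Zc σ y n (2 * n - j) = σ (Zc σ y n j) := by
  rcases le_total j n with h | h
  · rw [Zc_ge H (by omega), Zc_le h, show 2 * n - (2 * n - j) = j by omega]
  · rw [Zc_le (by omega), Zc_ge H h, H.inv _ (by omega)]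

/-- The closed polygon on `ZMod (2 * n)`. -/
def xc (σ : M → M) (y : ℕ → M) (n : ℕ) (i : ZMod (2 * n)) : M := Zc σ y n i.val

theorem xc_nat (hn : 2 ≤ n) (j : ℕ) : xc σ y n (j : ZMod (2 * n)) = Zc σ y n (j % (2 * n)) := by
  rw [xc, ZMod.val_natCast]

theorem xc_step (hn : 2 ≤ n) (hσ : Isometry σ) (H : Straight σ y n δ) (j : ℕ) :
    dist (xc σ y n (j : ZMod (2 * n))) (xc σ y n ((j + 1 : ℕ) : ZMod (2 * n))) = δ := by
  rw [xc_nat hn, xc_nat hn]
  have hr : j % (2 * n) < 2 * n := Nat.mod_lt _ (by omega)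
  set r := j % (2 * n) with hrd
  have h1 : (j + 1) % (2 * n) = (r + 1) % (2 * n) := by
    rw [hrd, Nat.mod_add_mod]
  rw [h1]
  rcases lt_or_ge (r + 1) (2 * n) with h2 | h2
  · rw [Nat.mod_eq_of_lt h2, Zc_step hσ H hr]
  · have h3 : r + 1 = 2 * n := by omega
    rw [h3, Nat.mod_self, ← Zc_top H, ← h3, Zc_step hσ H hr]

theorem xc_two (hn : 2 ≤ n) (hσ : Isometry σ) (H : Straight σ y n δ) (j : ℕ) :
    dist (xc σ y n (j : ZMod (2 * n))) (xc σ y n ((j + 2 : ℕ) : ZMod (2 * n))) = 2 * δ := by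
  rw [xc_nat hn, xc_nat hn]
  have hr : j % (2 * n) < 2 * n := Nat.mod_lt _ (by omega)
  set r := j % (2 * n) with hrd
  have h1 : (j + 2) % (2 * n) = (r + 2) % (2 * n) := by
    rw [hrd, Nat.mod_add_mod]
  rw [h1]
  rcases lt_or_ge (r + 2) (2 * n) with h2 | h2
  · rw [Nat.mod_eq_of_lt h2, Zc_two hσ H h2.le]
  · rcases h2.eq_or_lt with h3 | h3
    · rw [← h3, Nat.mod_self, ← Zc_top H, h3, Zc_two hσ H h3.ge]
    · have h4 : r = 2 * n - 1 := by omega
      have h5 : (r + 2) % (2 * n) = 1 := by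
        rw [h4, show 2 * n - 1 + 2 = 1 + 2 * n by omega, Nat.add_mod_right,
          Nat.mod_eq_of_lt (by omega)]
      rw [h5, Zc_le (show 1 ≤ n by omega), Zc_ge H (by omega), h4,
        show 2 * n - (2 * n - 1) = 1 by omega, dist_comm, H.refl0]

theorem xc_neg (hn : 2 ≤ n) (H : Straight σ y n δ) (i : ZMod (2 * n)) :
    xc σ y n (-i) = σ (xc σ y n i) := by
  have : NeZero (2 * n) := ⟨by omega⟩
  have hi : i.val < 2 * n := ZMod.val_lt i
  have h1 : -i = ((2 * n - i.val : ℕ) : ZMod (2 * n)) := by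
    rw [Nat.cast_sub hi.le, ZMod.natCast_self, ZMod.natCast_zmod_val, zero_sub]
  rw [h1, xc_nat hn]
  rcases Nat.eq_zero_or_pos i.val with h2 | h2
  · rw [h2, Nat.sub_zero, Nat.mod_self, xc, h2, Zc_le (Nat.zero_le n), H.left]
  · rw [Nat.mod_eq_of_lt (by omega), Zc_rev H hi.le, xc]

theorem crit (S : Segs M) (hn : 2 ≤ n) (hσ : Isometry σ) (H : Straight σ y n δ)
    (hδ : δ < S.ρ) : IsCritAt S 1 (xc σ y n) δ := by
  have : NeZero (2 * n) := ⟨by omega⟩
  intro i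
  obtain ⟨j, hj⟩ : ∃ j : ℕ, (j : ZMod (2 * n)) = i - 1 := ⟨(i - 1).val, ZMod.natCast_zmod_val _⟩
  have h1 : ((j + 1 : ℕ) : ZMod (2 * n)) = i := by push_cast; rw [hj]; ring
  have h2 : ((j + 2 : ℕ) : ZMod (2 * n)) = i + 1 := by push_cast; rw [hj]; ring
  have e1 := xc_step hn hσ H j
  have e2 := xc_step hn hσ H (j + 1)
  have e3 := xc_two hn hσ H j
  rw [show j + 1 + 1 = j + 2 by ring] at e2
  rw [h1, hj] at e1
  rw [h1, h2] at e2
  rw [hj, h2] at e3
  refine ⟨e2, ?_⟩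
  have e1' : dist (xc σ y n i) (xc σ y n (i - 1)) < S.ρ := by rw [dist_comm, e1]; exact hδ
  have e2' : dist (xc σ y n i) (xc σ y n (i + 1)) < S.ρ := by rw [e2]; exact hδ
  unfold Segs.bw Segs.fw
  have a1 := S.dl e1' half_mem
  have a2 := S.dr e1' half_mem
  have b1 := S.dl e2' half_mem
  have b2 := S.dr e2' half_mem
  rw [dist_comm (xc σ y n i) (xc σ y n (i - 1)), e1] at a1 a2
  rw [e2] at b1 b2
  have t1 := dist_triangle (S.seg (xc σ y n i) (xc σ y n (i - 1)) (1 / 2)) (xc σ y n i)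
    (S.seg (xc σ y n i) (xc σ y n (i + 1)) (1 / 2))
  have t2 := dist_triangle4 (xc σ y n (i - 1)) (S.seg (xc σ y n i) (xc σ y n (i - 1)) (1 / 2))
    (S.seg (xc σ y n i) (xc σ y n (i + 1)) (1 / 2)) (xc σ y n (i + 1))
  rw [dist_comm (S.seg (xc σ y n i) (xc σ y n (i - 1)) (1 / 2)) (xc σ y n i)] at t1
  rw [e3, dist_comm (xc σ y n (i - 1)) (S.seg (xc σ y n i) (xc σ y n (i - 1)) (1 / 2))] at t2
  apply le_antisymm
  · linarith
  · linarith

/-- The closing lemma. -/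
theorem close (S : Segs M) (hn : 2 ≤ n) (hσ : Isometry σ) (H : Straight σ y n δ)
    (hδ0 : 0 < δ) (hδ : δ < S.ρ) : ∃ (c : ℝ → M) (P : ℝ), 0 < P ∧ IsGeodesicWithSpeed c 1 ∧
      Function.Periodic c P ∧ ∀ t, σ (c t) = c (-t) := by
  have : NeZero (2 * n) := ⟨by omega⟩
  have hc := crit S hn hσ H hδ
  have hx : ∀ i, dist (xc σ y n i) (xc σ y n (i + 1)) < S.ρ := fun i => by
    rw [(hc i).1]; exact hδ
  have h1 := IsCritAt.isGeodesic hx hc
  have hper : Function.Periodic (crv S (xc σ y n)) ((2 * n : ℕ) : ℝ) := crv_periodic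
  have hrev : ∀ t, σ (crv S (xc σ y n) t) = crv S (xc σ y n) (-t) := by
    intro t
    have hf := Int.floor_le t
    have hl := Int.lt_floor_add_one t
    rw [crv_eq hx ⌊t⌋ hf hl.le, crv_eq hx (-(⌊t⌋ + 1)) (by push_cast; linarith)
      (by push_cast; linarith)]
    have m1 : ((-(⌊t⌋ + 1) : ℤ) : ZMod (2 * n)) = -((⌊t⌋ : ZMod (2 * n)) + 1) := by push_cast; ring
    have m2 : ((-(⌊t⌋ + 1) : ℤ) : ZMod (2 * n)) + 1 = -(⌊t⌋ : ZMod (2 * n)) := by push_cast; ring
    rw [m2, m1, xc_neg hn H, xc_neg hn H,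
      seg_nat S hσ (hx _) ⟨by linarith, by linarith⟩,
      S.seg_symm (by rw [hσ.dist_eq]; exact hx _) ⟨by linarith, by linarith⟩]
    congr 1
    push_cast
    ring
  refine ⟨fun t => crv S (xc σ y n) (t / δ), ((2 * n : ℕ) : ℝ) * δ, ?_, h1.normalize hδ0, ?_, ?_⟩
  · have : (0 : ℝ) < ((2 * n : ℕ) : ℝ) := by exact_mod_cast (by omega : 0 < 2 * n)
    positivity
  · intro t
    have : (t + ((2 * n : ℕ) : ℝ) * δ) / δ = t / δ + ((2 * n : ℕ) : ℝ) := by field_simp
    simp only [this]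
    exact hper _
  · intro t
    simp only [neg_div]
    exact hrev _

end

end Vale.Agent.P216.R2.H930
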