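import Vale.Agent.P216.R2.H930.Coc

/-!
P216: circle actions without fixed points.
-/

namespace Vale.Agent.P216.R2.H930

open Set Filter Topology

variable {M : Type*} [MetricSpace M] {φ : ℝ → M → M}

/-- Small times move points little. -/
theorem small [CompactSpace M] (hi : ∀ s, Isometry (φ s))
    (hcont : ∀ x, Continuous fun s => φ s x) (h0 : ∀ x, φ 0 x = x) {ε : ℝ} (hε : 0 < ε) :
    ∀ᶠ s in 𝓝 (0 : ℝ), ∀ y, dist y (φ s y) < ε := by
  obtain ⟨t, -, ht, hcov⟩ := (isCompact_univ (X := M)).finite_cover_balls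
    (show 0 < ε / 3 by positivity)
  have h1 : ∀ᶠ s in 𝓝 (0 : ℝ), ∀ x ∈ t, dist x (φ s x) < ε / 3 := by
    rw [Filter.eventually_all_finite ht]
    intro x _
    have h2 : Tendsto (fun s => dist x (φ s x)) (𝓝 0) (𝓝 (dist x (φ 0 x))) :=
      (continuous_const.dist (hcont x)).tendsto 0
    rw [h0, dist_self] at h2
    exact h2.eventually (gt_mem_nhds (by positivity))
  filter_upwards [h1] with s hs y
  obtain ⟨x, hx, hxy⟩ : ∃ x ∈ t, dist y x < ε / 3 := by
    have h2 := hcov (mem_univ y)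
    simpa using h2
  have h3 := hs x hx
  have h4 := dist_triangle4 y x (φ s x) (φ s y)
  rw [(hi s).dist_eq, dist_comm x y] at h4
  linarith

theorem exists_chain (hM : HasSegments M) {ρ : ℝ} (hρ : 0 < ρ) (x y : M) :
    ∃ (n : ℕ) (w : ℕ → M), w 0 = x ∧ w n = y ∧ ∀ i < n, dist (w i) (w (i + 1)) < ρ := by
  obtain ⟨γ, h0, h1, h2⟩ := hM x y
  have hd : 0 ≤ dist x y := dist_nonneg
  obtain ⟨n, hn⟩ := exists_nat_gt (dist x y / ρ)
  have hn0 : (0 : ℝ) < n := lt_of_le_of_lt (by positivity) hn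
  have hmem : ∀ i : ℕ, i ≤ n → (i : ℝ) / n * dist x y ∈ Icc 0 (dist x y) := by
    intro i hi
    have h3 : (i : ℝ) / n ≤ 1 := by rw [div_le_one hn0]; exact_mod_cast hi
    exact ⟨by positivity, mul_le_of_le_one_left hd h3⟩
  refine ⟨n, fun i => γ ((i : ℝ) / n * dist x y), ?_, ?_, fun i hi => ?_⟩
  · simp only [Nat.cast_zero, zero_div, zero_mul, h0]
  · simp only [div_self hn0.ne', one_mul, h1]
  · rw [h2 _ (hmem i hi.le) _ (hmem (i + 1) hi)]
    push_cast
    rw [show (i : ℝ) / n * dist x y - ((i : ℝ) + 1) / n * dist x y = -(dist x y / n) by ring,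
      abs_neg, abs_of_nonneg (by positivity), div_lt_iff₀ hn0]
    rw [div_lt_iff₀ hρ] at hn
    linarith

section Hol

variable {Γ : Type*} [Group Γ] (S : LocalCocycle M Γ)

/-- The holonomy of an orbit. -/
noncomputable def hol (φ : ℝ → M → M) (n : ℕ) (x : M) : Γ := S.P (fun i : ℕ => φ ((i : ℝ) / n) x) n

theorem hol_near {n : ℕ} (hn : 0 < n) (hi : ∀ s, Isometry (φ s)) (h0 : ∀ x, φ 0 x = x)
    (hadd : ∀ s t x, φ (s + t) x = φ s (φ t x)) (h1 : ∀ x, φ 1 x = x)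
    (hsm : ∀ y, dist y (φ (1 / n) y) < S.r / 2) {x x' : M} (hxx : dist x x' < S.r / 2) :
    hol S φ n x' = (S.coc x x')⁻¹ * hol S φ n x * S.coc x x' := by
  have hn0 : (n : ℝ) ≠ 0 := by positivity
  have hst : ∀ y, ∀ i < n, dist (φ ((i : ℝ) / n) y) (φ (((i + 1 : ℕ) : ℝ) / n) y) < S.r / 2 := by
    intro y i _
    rw [Nat.cast_add, Nat.cast_one, add_div, hadd, (hi _).dist_eq]
    exact hsm y
  have h2 := S.P_close (x := fun i : ℕ => φ ((i : ℝ) / n) x) (y := fun i : ℕ => φ ((i : ℝ) / n) x')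
    (n := n) (hst x) (hst x') (fun i _ => by rw [(hi _).dist_eq]; exact hxx)
  simp only [Nat.cast_zero, zero_div, h0, div_self hn0, h1] at h2
  exact h2

theorem hol_chain {n : ℕ} (hn : 0 < n) (hi : ∀ s, Isometry (φ s)) (h0 : ∀ x, φ 0 x = x)
    (hadd : ∀ s t x, φ (s + t) x = φ s (φ t x)) (h1 : ∀ x, φ 1 x = x)
    (hsm : ∀ y, dist y (φ (1 / n) y) < S.r / 2) {w : ℕ → M} {k : ℕ}
    (hw : ∀ i < k, dist (w i) (w (i + 1)) < S.r / 2) :
    hol S φ n (w k) = (S.P w k)⁻¹ * hol S φ n (w 0) * S.P w k := by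
  induction k with
  | zero => simp
  | succ k ih =>
    rw [hol_near S hn hi h0 hadd h1 hsm (hw k (by omega)), ih (fun i hi' => hw i (by omega)),
      S.P_succ]
    group

theorem hol_center {n : ℕ} (hn : 0 < n) (hM : HasSegments M) (hi : ∀ s, Isometry (φ s))
    (h0 : ∀ x, φ 0 x = x) (hadd : ∀ s t x, φ (s + t) x = φ s (φ t x)) (h1 : ∀ x, φ 1 x = x)
    (hsm : ∀ y, dist y (φ (1 / n) y) < S.r / 2) {x₀ : M} {v : Γ}
    (hb : ∀ g : Γ, ∃ (n : ℕ) (x : ℕ → M), 0 < n ∧ x 0 = x₀ ∧ x n = x₀ ∧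
      (∀ i < n, dist (x i) (x (i + 1)) < S.r / 2) ∧ S.P x n = v * g * v⁻¹) (x : M) :
    hol S φ n x ∈ Subgroup.center Γ := by
  have hr := S.r_pos
  have hz : hol S φ n x₀ ∈ Subgroup.center Γ := by
    rw [Subgroup.mem_center_iff]
    intro h
    obtain ⟨k, w, -, hw0, hwk, hst, hP⟩ := hb (v⁻¹ * h * v)
    have h2 := hol_chain S hn hi h0 hadd h1 hsm hst
    rw [hw0, hwk, hP, show v * (v⁻¹ * h * v) * v⁻¹ = h by group] at h2
    calc h * hol S φ n x₀ = h * (h⁻¹ * hol S φ n x₀ * h) := by rw [← h2]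
      _ = hol S φ n x₀ * h := by group
  obtain ⟨k, w, hw0, hwk, hst⟩ := exists_chain hM (show 0 < S.r / 2 by positivity) x₀ x
  have h2 := hol_chain S hn hi h0 hadd h1 hsm hst
  rw [hw0, hwk] at h2
  have h3 := Subgroup.mem_center_iff.1 hz (S.P w k)
  rw [h2, mul_assoc, ← h3, ← mul_assoc, inv_mul_cancel, one_mul]
  exact hz

theorem P_geo {c : ℝ → M} {δ : ℝ} {f : ℝ → Γ} (hf : S.IsLift c δ f) {a : ℝ} (ha : |a| ≤ δ)
    (k : ℕ) : S.P (fun i : ℕ => c (i * a)) k = (f 0)⁻¹ * f (k * a) := by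
  induction k with
  | zero => simp
  | succ k ih =>
    rw [S.P_succ, ih, ← hf (k * a) ((k + 1 : ℕ) * a) (by
      push_cast
      rw [show (k : ℝ) * a - (k + 1) * a = -a by ring, abs_neg]
      exact ha)]
    group

end Hol

/-- A small displacement is a small shift. -/
theorem shift_gap {c : ℝ → M} (hc : Continuous c) {ℓ : ℝ} (hℓ : 0 < ℓ)
    (hper : Function.Periodic c ℓ) (hgen : ∀ p, Function.Periodic c p → ∃ m : ℤ, p = m * ℓ)
    {δ : ℝ} (hδ : 0 < δ) : ∃ ε > 0, ∀ a, (∀ t, dist (c t) (c (t + a)) < ε) →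
      ∃ b, |b| ≤ δ ∧ ∀ t, c (t + a) = c (t + b) := by
  by_contra hcon
  push Not at hcon
  choose a ha hb using fun k : ℕ => hcon (1 / ((k : ℝ) + 1)) (by positivity)
  obtain ⟨b, hbd⟩ : ∃ b : ℕ → ℝ, b = fun k => a k - round (a k / ℓ) * ℓ := ⟨_, rfl⟩
  have h1 : ∀ k t, c (t + a k) = c (t + b k) := by
    intro k t
    have h2 := hper.int_mul (round (a k / ℓ)) (t + b k)
    rw [← h2, hbd]
    congr 1
    ring
  have h2 : ∀ k, |b k| ≤ ℓ / 2 := by
    intro k
    have h3 := abs_sub_round (a k / ℓ)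
    have h4 : b k = (a k / ℓ - round (a k / ℓ)) * ℓ := by
      rw [hbd, sub_mul, div_mul_cancel₀ _ hℓ.ne']
    rw [h4, abs_mul, abs_of_pos hℓ]
    nlinarith
  have h3 : ∀ k, δ < |b k| := by
    intro k
    by_contra h4
    rw [not_lt] at h4
    obtain ⟨t, ht⟩ := hb k (b k) h4
    exact ht (h1 k t)
  obtain ⟨β, hβ, ψ, hψ, hlim⟩ := (isCompact_Icc (a := -(ℓ / 2)) (b := ℓ / 2)).tendsto_subseq
    (x := b) (fun k => abs_le.1 (h2 k))
  have h5 : Function.Periodic c β := by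
    intro t
    have h6 : Tendsto (fun j => dist (c t) (c (t + b (ψ j)))) atTop
        (𝓝 (dist (c t) (c (t + β)))) :=
      ((continuous_const.dist (hc.comp (continuous_const.add continuous_id))).tendsto β).comp hlim
    have h7 : Tendsto (fun j => 1 / ((ψ j : ℝ) + 1)) atTop (𝓝 0) :=
      tendsto_one_div_add_atTop_nhds_zero_nat.comp hψ.tendsto_atTop
    have h8 : dist (c t) (c (t + β)) ≤ 0 := le_of_tendsto_of_tendsto' h6 h7 fun j => by
      rw [← h1]; exact (ha (ψ j) t).le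
    exact (dist_le_zero.1 h8).symm
  obtain ⟨m, hm⟩ := hgen β h5
  have h6 : δ ≤ |β| := ge_of_tendsto' ((continuous_abs.tendsto β).comp hlim) fun j => (h3 (ψ j)).le
  have h7 : |β| ≤ ℓ / 2 := abs_le.2 hβ
  rw [hm, abs_mul, abs_of_pos hℓ] at h7
  have h8 : |(m : ℝ)| < 1 := by nlinarith
  have h9 : m = 0 := by
    have h10 : |m| < 1 := by exact_mod_cast h8
    exact Int.abs_lt_one_iff.1 h10
  rw [hm, h9] at h6
  simp at h6
  linarith

/-- The holonomy of a closed geodesic which is an orbit has a central power. -/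
theorem pow_center [CompactSpace M] {Γ : Type*} [Group Γ] (S : LocalCocycle M Γ)
    (hM : HasSegments M) (hi : ∀ s, Isometry (φ s)) (hcont : ∀ x, Continuous fun s => φ s x)
    (hadd : ∀ s t x, φ (s + t) x = φ s (φ t x)) (h1 : ∀ x, φ 1 x = x) {x₀ : M} {v : Γ}
    (hb : ∀ g : Γ, ∃ (n : ℕ) (x : ℕ → M), 0 < n ∧ x 0 = x₀ ∧ x n = x₀ ∧
      (∀ i < n, dist (x i) (x (i + 1)) < S.r / 2) ∧ S.P x n = v * g * v⁻¹)
    {c : ℝ → M} {τ δ : ℝ} {f : ℝ → Γ} (hτ : 0 < τ) (hper : Function.Periodic c τ)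
    (hc : IsGeodesicWithSpeed c 1) (hf0 : f 0 = 1) (hδ : 0 < δ) (hf : S.IsLift c δ f)
    (hsl : ∀ s, ∃ a, ∀ t, φ s (c t) = c (t + a)) (hfree : ∃ s t, φ s (c t) ≠ c t) :
    ∃ m : ℤ, m ≠ 0 ∧ (f τ) ^ m ∈ Subgroup.center Γ ∧
      ((∃ x, ∀ s, φ s x = x) → (f τ) ^ m = 1) := by
  have h0 : ∀ x, φ 0 x = x := fun x => by
    have h2 := hadd 0 1 x
    rw [zero_add, h1] at h2
    exact h2.symm
  obtain ⟨ℓ, hℓ, hp1, hp2⟩ := exists_generator_periods one_pos hc hτ hper
  obtain ⟨ε, hε, hgap⟩ := shift_gap hc.continuous hℓ hp1 hp2 hδ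
  have hr := S.r_pos
  -- a dyadic time
  have hlim : Tendsto (fun j : ℕ => (1 : ℝ) / ((2 ^ j : ℕ) : ℝ)) atTop (𝓝 0) := by
    have h3 : Tendsto (fun j : ℕ => (1 / 2 : ℝ) ^ j) atTop (𝓝 0) :=
      tendsto_pow_atTop_nhds_zero_of_lt_one (by norm_num) (by norm_num)
    refine h3.congr fun j => ?_
    push_cast
    rw [one_div_pow]
  have hev : ∀ᶠ j : ℕ in atTop, ∀ y, dist y (φ (1 / ((2 ^ j : ℕ) : ℝ)) y) < min ε (S.r / 2) :=
    hlim.eventually (small hi hcont h0 (lt_min hε (by positivity)))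
  obtain ⟨s, t₀, hs⟩ := hfree
  have hnf : ∃ j₀, c t₀ ∉ Nj φ j₀ := by
    by_contra hall
    push Not at hall
    rcases le_total 0 s with h | h
    · exact hs (fix_of_all hcont hadd h0 hall h)
    · have h3 := fix_of_all hcont hadd h0 hall (neg_nonneg.2 h)
      apply hs
      have h4 : φ s (φ (-s) (c t₀)) = c t₀ := by rw [← hadd, add_neg_cancel, h0]
      rwa [h3] at h4
  obtain ⟨j₀, hj₀⟩ := hnf
  obtain ⟨j, hj1, hj2⟩ := (hev.and (eventually_ge_atTop j₀)).exists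
  obtain ⟨n, hn⟩ : ∃ n : ℕ, n = 2 ^ j := ⟨_, rfl⟩
  have hn0 : 0 < n := by rw [hn]; positivity
  have hnR : (n : ℝ) ≠ 0 := by positivity
  rw [← hn] at hj1
  have hfx : φ (1 / (n : ℝ)) (c t₀) ≠ c t₀ := by
    intro h
    apply hj₀
    apply Nj_anti hadd hj2
    show φ (1 / 2 ^ j) (c t₀) = c t₀
    rw [hn] at h
    push_cast at h
    exact h
  obtain ⟨a', ha'⟩ := hsl (1 / (n : ℝ))
  obtain ⟨a, had, ha⟩ := hgap a' fun t => by
    rw [← ha']
    exact (hj1 _).trans_le (min_le_left _ _)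
  have hsh : ∀ t, φ (1 / (n : ℝ)) (c t) = c (t + a) := fun t => by rw [ha', ha]
  have e1 : ∀ i : ℕ, ∀ t, φ ((i : ℝ) / n) (c t) = c (t + i * a) := by
    intro i
    induction i with
    | zero =>
      intro t
      rw [Nat.cast_zero, zero_div, zero_mul, add_zero, h0]
    | succ i ih =>
      intro t
      rw [Nat.cast_succ, add_div, hadd, hsh, ih]
      congr 1
      ring
  obtain ⟨m, hm⟩ := hp2 (n * a) fun t => by
    rw [← e1 n t, div_self hnR, h1]
  have hm0 : m ≠ 0 := by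
    rintro rfl
    rw [Int.cast_zero, zero_mul] at hm
    have h3 : a = 0 := by
      rcases mul_eq_zero.1 hm with h | h
      · exact absurd h hnR
      · exact h
    apply hfx
    rw [hsh, h3, add_zero]
  obtain ⟨q, hq⟩ := hp2 τ hper
  -- the holonomy
  have hhol : hol S φ n (c 0) = (f ℓ) ^ m := by
    have h3 : hol S φ n (c 0) = S.P (fun i : ℕ => c (i * a)) n := by
      unfold hol
      congr 1
      funext i
      rw [e1, zero_add]
    rw [h3, P_geo S hf had, hf0, inv_one, one_mul, hm]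
    have h4 := hf.periodic_zsmul S hδ hf0 hp1 m 0
    rwa [zero_add, hf0, mul_one] at h4
  have hfτ : f τ = (f ℓ) ^ q := by
    have h4 := hf.periodic_zsmul S hδ hf0 hp1 q 0
    rwa [zero_add, hf0, mul_one, ← hq] at h4
  have hsm : ∀ y, dist y (φ (1 / (n : ℝ)) y) < S.r / 2 := fun y =>
    (hj1 y).trans_le (min_le_right _ _)
  refine ⟨m, hm0, ?_, ?_⟩
  · have h5 := hol_center S hn0 hM hi h0 hadd h1 hsm hb (c 0)
    rw [hfτ, ← zpow_mul, mul_comm, zpow_mul, ← hhol]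
    exact Subgroup.zpow_mem _ h5 q
  · rintro ⟨y, hy⟩
    have h5 : hol S φ n y = 1 := by
      have h6 : ∀ k : ℕ, S.P (fun i : ℕ => φ ((i : ℝ) / n) y) k = 1 := by
        intro k
        induction k with
        | zero => rfl
        | succ k ih => rw [S.P_succ, ih, one_mul, hy, hy, S.self_eq]
      exact h6 n
    obtain ⟨k, w, hw0, hwk, hst⟩ := exists_chain hM (show 0 < S.r / 2 by positivity) y (c 0)
    have h6 := hol_chain S hn0 hi h0 hadd h1 hsm hst
    rw [hw0, hwk, h5, mul_one, inv_mul_cancel] at h6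
    rw [hfτ, ← zpow_mul, mul_comm, zpow_mul, ← hhol, h6, one_zpow]

/-- Circle actions which fix no closed geodesic pointwise. -/
theorem infinite_of_circle_pi [CompactSpace M] (hM : HasSegments M) (hNB : NonBranching M) {r₀ : ℝ}
    (hr₀ : 0 < r₀) (hS : SmallPathsHomotopic M r₀) (x₀ : M) (hi : ∀ s, Isometry (φ s))
    (hcont : ∀ x, Continuous fun s => φ s x) (hadd : ∀ s t x, φ (s + t) x = φ s (φ t x))
    (h1 : ∀ x, φ 1 x = x) (hfree : ∀ (c : ℝ → M) (P : ℝ), 0 < P → IsGeodesicWithSpeed c 1 →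
      Function.Periodic c P → ∃ s t, φ s (c t) ≠ c t) (g : FundamentalGroup M x₀)
    (hg : (∀ m : ℕ, 0 < m → g ^ m ∉ Subgroup.center (FundamentalGroup M x₀)) ∨
      ((∃ x, ∀ s, φ s x = x) ∧ ∀ m : ℕ, 0 < m → g ^ m ≠ 1)) :
    (primeClosedGeodesicImages M).Infinite := by
  by_contra hfin
  obtain ⟨S, v, hb⟩ := exists_cocycle_based hM hr₀ hS x₀
  have hr := S.r_pos
  have hg1 : g ≠ 1 := by
    rintro rfl
    rcases hg with hg | ⟨-, hg⟩
    · exact hg 1 one_pos (by rw [one_pow]; exact Subgroup.one_mem _)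
    · exact hg 1 one_pos (one_pow 1)
  obtain ⟨n, x, hn, hx0, hxn, hst, hP⟩ := hb g
  have hch : S.HasChain g n (∑ i ∈ Finset.range n, dist (x i) (x (i + 1)) ^ 2) :=
    ⟨x, by rw [hx0, hxn], hst, isConj_iff.2 ⟨v, hP.symm⟩, le_rfl⟩
  obtain ⟨c, τ, f, hτ, hper, hc, hf0, hf, hconj⟩ := exists_closed_geodesic S hM hg1 hn hch
    (show 0 < S.r / 4 by positivity) (by linarith)
  have h0 : ∀ x, φ 0 x = x := fun x => by
    have h2 := hadd 0 1 x
    rw [zero_add, h1] at h2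
    exact h2.symm
  have hsl : ∀ s, ∃ a, ∀ t, φ s (c t) = c (t + a) := by
    intro s
    by_contra h6
    push Not at h6
    refine hfin (infinite_of_moved (g := fun (u : unitInterval) x => φ ((u : ℝ) * s) x) hNB
      (fun u => hi _) (fun x => (hcont x).comp (continuous_subtype_val.mul continuous_const))
      (fun x => ?_) hτ hc hper fun a => ?_)
    · simp only [Set.Icc.coe_zero, zero_mul]; exact h0 x
    · obtain ⟨t, ht⟩ := h6 a
      refine ⟨t, ?_⟩
      simp only [Set.Icc.coe_one, one_mul]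
      exact ht
  obtain ⟨m, hm, hmc, hm1⟩ := pow_center S hM hi hcont hadd h1 hb hτ hper hc hf0 (by positivity) hf
    hsl (hfree c τ hτ hc hper)
  obtain ⟨u, hu⟩ := isConj_iff.1 hconj
  rcases hg with hg | ⟨hF, hg⟩
  · have h3 : g ^ m ∈ Subgroup.center (FundamentalGroup M x₀) := by
      have h4 : u * g ^ m * u⁻¹ ∈ Subgroup.center (FundamentalGroup M x₀) := by
        rw [← conj_zpow, hu]; exact hmc
      have h5 := Subgroup.mem_center_iff.1 h4 u⁻¹
      have h6 : g ^ m = u * g ^ m * u⁻¹ := by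
        calc g ^ m = u⁻¹ * (u * g ^ m * u⁻¹) * u := by group
          _ = (u * g ^ m * u⁻¹) * u⁻¹ * u := by rw [h5]
          _ = u * g ^ m * u⁻¹ := by group
      rw [h6]; exact h4
    refine hg m.natAbs (Int.natAbs_pos.2 hm) ?_
    rcases Int.natAbs_eq m with h | h
    · rw [h, zpow_natCast] at h3
      exact h3
    · rw [h, zpow_neg, zpow_natCast] at h3
      exact (Subgroup.inv_mem_iff _).1 h3
  · have h3 : g ^ m = 1 := by
      have h4 : u * g ^ m * u⁻¹ = 1 := by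
        rw [← conj_zpow, hu]; exact hm1 hF
      calc g ^ m = u⁻¹ * (u * g ^ m * u⁻¹) * u := by group
        _ = 1 := by rw [h4]; group
    refine hg m.natAbs (Int.natAbs_pos.2 hm) ?_
    rcases Int.natAbs_eq m with h | h
    · rw [h, zpow_natCast] at h3
      exact h3
    · rw [h, zpow_neg, zpow_natCast] at h3
      exact inv_eq_one.1 h3

end Vale.Agent.P216.R2.H930
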