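import Vale.Agent.P216.Smooth.Geo
import Vale.Agent.P216.H126.Cover
import Vale.Agent.P216.R2.H930.Free

/-!
P216: closed Riemannian manifolds with symmetries.
-/

namespace Vale.Agent.P216.R2.H930

open Set Bundle Manifold Vale.Agent.P216.H494
open scoped ContDiff

/-- `g` is a path of isometries starting at the identity. -/
def IsoPath {M : Type*} [MetricSpace M] (g : unitInterval → M → M) : Prop :=
  (∀ s, Isometry (g s)) ∧ (∀ x, Continuous fun s => g s x) ∧ ∀ x, g 0 x = x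

/-- `φ` is an action of the circle `ℝ / ℤ` by isometries. -/
def CircleAction {M : Type*} [MetricSpace M] (φ : ℝ → M → M) : Prop :=
  (∀ s, Isometry (φ s)) ∧ (∀ x, Continuous fun s => φ s x) ∧
    (∀ s t x, φ (s + t) x = φ s (φ t x)) ∧ ∀ x, φ 1 x = x

section
variable {M : Type*} [MetricSpace M]

/-- The isotropy part: two commuting circle actions, both sliding a closed geodesic. -/
theorem infinite_isotropy {φ ψ : ℝ → M → M} (h1 : CircleAction φ) (h2 : CircleAction ψ)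
    (hc : ∀ s t x, φ s (ψ t x) = ψ t (φ s x)) {c : ℝ → M} {P : ℝ} (hP : 0 < P)
    (hgeo : IsGeodesicWithSpeed c 1) (hper : Function.Periodic c P)
    (hφ : ∀ s, ∃ a, ∀ t, φ s (c t) = c (t + a)) (hψ : ∀ s, ∃ a, ∀ t, ψ s (c t) = c (t + a)) :
    {p : ℝ × ℝ | p ∈ Ico (0 : ℝ) 1 ×ˢ Ico (0 : ℝ) 1 ∧ φ p.1 (ψ p.2 (c 0)) = c 0}.Infinite := by
  obtain ⟨ℓ, hℓ, hp1, hp2⟩ := exists_generator_periods one_pos hgeo hP hper
  intro hfin
  obtain ⟨N, hN⟩ : ∃ N : ℕ, N = hfin.toFinset.card := ⟨_, rfl⟩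
  obtain ⟨n, hn⟩ : ∃ n : ℕ, n = N + 1 := ⟨_, rfl⟩
  have hn0 : 0 < n := by omega
  have hnR : (0 : ℝ) < n := by exact_mod_cast hn0
  have : NeZero n := ⟨by omega⟩
  obtain ⟨a, ha⟩ := hφ (1 / n)
  obtain ⟨b, hb⟩ := hψ (1 / n)
  have e1 : ∀ i : ℕ, ∀ t, φ (i / n) (c t) = c (t + i * a) := by
    intro i
    induction i with
    | zero =>
      intro t
      have h3 := h1.2.2.1 0 1 (c t)
      rw [zero_add, h1.2.2.2] at h3
      rw [Nat.cast_zero, zero_div, zero_mul, add_zero]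
      exact h3.symm
    | succ i ih =>
      intro t
      rw [Nat.cast_succ, add_div, h1.2.2.1, ha, ih]
      congr 1
      ring
  have e2 : ∀ i : ℕ, ∀ t, ψ (i / n) (c t) = c (t + i * b) := by
    intro i
    induction i with
    | zero =>
      intro t
      have h3 := h2.2.2.1 0 1 (c t)
      rw [zero_add, h2.2.2.2] at h3
      rw [Nat.cast_zero, zero_div, zero_mul, add_zero]
      exact h3.symm
    | succ i ih =>
      intro t
      rw [Nat.cast_succ, add_div, h2.2.2.1, hb, ih]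
      congr 1
      ring
  obtain ⟨m, hm⟩ := hp2 (n * a) fun t => by
    rw [← e1 n t, div_self hnR.ne', h1.2.2.2]
  obtain ⟨m', hm'⟩ := hp2 (n * b) fun t => by
    rw [← e2 n t, div_self hnR.ne', h2.2.2.2]
  obtain ⟨f, hf⟩ : ∃ f : (ZMod n × ZMod n) →+ ZMod n, ∀ p, f p = p.1 * (m : ZMod n) +
      p.2 * (m' : ZMod n) :=
    ⟨{ toFun := fun p => p.1 * (m : ZMod n) + p.2 * (m' : ZMod n)
       map_zero' := by simp
       map_add' := fun p q => by simp only [Prod.fst_add, Prod.snd_add]; ring }, fun _ => rfl⟩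
  have hker : n ≤ Nat.card f.ker := by
    have h3 := AddSubgroup.card_mul_index f.ker
    rw [Nat.card_prod, Nat.card_zmod] at h3
    have h4 : f.ker.index ≤ n := by
      rw [AddSubgroup.index_ker]
      exact (Nat.card_le_card_of_injective _ Subtype.val_injective).trans
        (Nat.card_zmod n).le
    by_contra h5
    rw [not_le] at h5
    have h6 : Nat.card f.ker * f.ker.index < n * n :=
      lt_of_le_of_lt (Nat.mul_le_mul_left _ h4) (Nat.mul_lt_mul_of_pos_right h5 hn0)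
    omega
  have hmap : ∀ p : f.ker, (((p.1.1.val : ℝ) / n, (p.1.2.val : ℝ) / n) : ℝ × ℝ) ∈
      {p : ℝ × ℝ | p ∈ Ico (0 : ℝ) 1 ×ˢ Ico (0 : ℝ) 1 ∧ φ p.1 (ψ p.2 (c 0)) = c 0} := by
    rintro ⟨⟨i, j⟩, hij⟩
    have hi : (i.val : ℝ) < n := by exact_mod_cast ZMod.val_lt i
    have hj : (j.val : ℝ) < n := by exact_mod_cast ZMod.val_lt j
    refine ⟨⟨⟨by positivity, (div_lt_one hnR).2 hi⟩, ⟨by positivity, (div_lt_one hnR).2 hj⟩⟩, ?_⟩
    show φ ((i.val : ℝ) / n) (ψ ((j.val : ℝ) / n) (c 0)) = c 0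
    rw [e2, e1]
    have h3 : f (i, j) = 0 := hij
    rw [hf] at h3
    have h4 : (((i.val : ℤ) * m + (j.val : ℤ) * m' : ℤ) : ZMod n) = 0 := by
      push_cast
      rw [ZMod.natCast_zmod_val, ZMod.natCast_zmod_val]
      exact h3
    rw [ZMod.intCast_zmod_eq_zero_iff_dvd] at h4
    obtain ⟨q, hq⟩ := h4
    have h5 : (n : ℝ) * (0 + (j.val : ℝ) * b + (i.val : ℝ) * a) = n * (q * ℓ) := by
      have h6 : ((i.val : ℝ) * m + (j.val : ℝ) * m') = n * q := by exact_mod_cast hq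
      calc (n : ℝ) * (0 + (j.val : ℝ) * b + (i.val : ℝ) * a)
          = (i.val : ℝ) * (n * a) + (j.val : ℝ) * (n * b) := by ring
        _ = ((i.val : ℝ) * m + (j.val : ℝ) * m') * ℓ := by rw [hm, hm']; ring
        _ = n * (q * ℓ) := by rw [h6]; ring
    have h6 := mul_left_cancel₀ hnR.ne' h5
    rw [h6]
    have h7 := hp1.int_mul q 0
    rwa [zero_add] at h7
  have hinj : Function.Injective fun p : f.ker => (⟨_, hfin.mem_toFinset.2 (hmap p)⟩ :
      {x // x ∈ hfin.toFinset}) := by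
    rintro ⟨⟨i, j⟩, hij⟩ ⟨⟨i', j'⟩, hij'⟩ h
    have h3 := congrArg Subtype.val h
    simp only [Prod.mk.injEq] at h3
    obtain ⟨h4, h5⟩ := h3
    rw [div_left_inj' hnR.ne'] at h4 h5
    have h6 : i = i' := ZMod.val_injective n (by exact_mod_cast h4)
    have h7 : j = j' := ZMod.val_injective n (by exact_mod_cast h5)
    subst h6 h7
    rfl
  have h3 := Nat.card_le_card_of_injective _ hinj
  rw [Nat.card_eq_fintype_card (α := {x // x ∈ hfin.toFinset}), Fintype.card_coe, ← hN] at h3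
  omega

end

variable {E : Type*} [NormedAddCommGroup E] [NormedSpace ℝ E] [FiniteDimensional ℝ E]
  {M : Type*} [MetricSpace M] [ChartedSpace E M] [IsManifold 𝓘(ℝ, E) ∞ M]
  [RiemannianBundle (fun x : M => TangentSpace 𝓘(ℝ, E) x)]
  [IsContMDiffRiemannianBundle 𝓘(ℝ, E) ∞ E (fun x : M => TangentSpace 𝓘(ℝ, E) x)]
  [IsRiemannianManifold 𝓘(ℝ, E) M]

variable (E M) in
include E in
theorem exists_segs [CompactSpace M] : Nonempty (Segs M) := by
  obtain ⟨ρ, hρ, hu, -⟩ := Geo.exists_uniqSeg E M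
  exact ⟨Segs.ofUniqSeg hρ hu⟩

variable (E M) in
include E in
/-- A closed geodesic of a manifold which is not simply connected. -/
theorem exists_closed [CompactSpace M] (x₀ : M) (hx : Nontrivial (FundamentalGroup M x₀)) :
    ∃ (c : ℝ → M) (P : ℝ), 0 < P ∧ IsGeodesicWithSpeed c 1 ∧ Function.Periodic c P := by
  have hM := hasSegments_of_riemannian 𝓘(ℝ, E) M
  obtain ⟨r₀, hr₀, hS⟩ := exists_smallPathsHomotopic E M
  obtain ⟨S, hgen⟩ := exists_cocycle hM hr₀ hS x₀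
  obtain ⟨g, hg⟩ := exists_ne (1 : FundamentalGroup M x₀)
  obtain ⟨n, F, hn, hch⟩ := hgen g
  have hr := S.r_pos
  obtain ⟨c, τ, f, hτ, hper, hc, -⟩ := exists_closed_geodesic S hM hg hn hch
    (show 0 < S.r / 4 by positivity) (by linarith)
  exact ⟨c, τ, hτ, hc, hper⟩

end Vale.Agent.P216.R2.H930
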