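import Vale.Agent.P216.R2.H930.Close

/-!
P216: the shortest chain between two separate parts of fixed point sets of isometric involutions
closes up to a closed geodesic.
-/

namespace Vale.Agent.P216.R2.H930

open Set Vale.Agent.P216.H494

variable {M : Type*} [MetricSpace M]

/-! ### Energy of chains -/

/-- The energy of a chain. -/
noncomputable def ch (n : ℕ) (y : ℕ → M) : ℝ := ∑ i ∈ Finset.range n, dist (y i) (y (i + 1)) ^ 2

theorem ch_cont (n : ℕ) : Continuous (ch (M := M) n) := by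
  unfold ch
  fun_prop

theorem sq_le_ch {n i : ℕ} (h : i < n) (y : ℕ → M) : dist (y i) (y (i + 1)) ^ 2 ≤ ch n y :=
  Finset.single_le_sum (f := fun i => dist (y i) (y (i + 1)) ^ 2) (fun _ _ => sq_nonneg _)
    (Finset.mem_range.2 h)

theorem ch_mid {n j : ℕ} (h : j + 2 ≤ n) (y : ℕ → M) (m : M) :
    ch n (Function.update y (j + 1) m) +
      (dist (y j) (y (j + 1)) ^ 2 + dist (y (j + 1)) (y (j + 2)) ^ 2) =
    ch n y + (dist (y j) m ^ 2 + dist m (y (j + 2)) ^ 2) := by
  have hS : ({j, j + 1} : Finset ℕ) ⊆ Finset.range n := by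
    intro i hi
    rw [Finset.mem_insert, Finset.mem_singleton] at hi
    rw [Finset.mem_range]
    omega
  unfold ch
  rw [← Finset.sum_sdiff hS, ← Finset.sum_sdiff hS (f := fun i => dist (y i) (y (i + 1)) ^ 2),
    Finset.sum_pair (by omega), Finset.sum_pair (by omega)]
  have h1 : ∀ i ∈ Finset.range n \ {j, j + 1},
      dist (Function.update y (j + 1) m i) (Function.update y (j + 1) m (i + 1)) ^ 2 =
        dist (y i) (y (i + 1)) ^ 2 := by
    intro i hi
    rw [Finset.mem_sdiff, Finset.mem_insert, Finset.mem_singleton] at hi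
    rw [Function.update_of_ne (by omega), Function.update_of_ne (by omega)]
  rw [Finset.sum_congr rfl h1, Function.update_of_ne (show j ≠ j + 1 by omega),
    Function.update_self, Function.update_of_ne (show j + 1 + 1 ≠ j + 1 by omega)]
  ring

theorem ch_zero (k : ℕ) (y : ℕ → M) (m : M) :
    ch (k + 1) (Function.update y 0 m) + dist (y 0) (y 1) ^ 2 = ch (k + 1) y + dist m (y 1) ^ 2 := by
  unfold ch
  rw [Finset.sum_range_succ', Finset.sum_range_succ']
  have h1 : ∀ i ∈ Finset.range k,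
      dist (Function.update y 0 m (i + 1)) (Function.update y 0 m (i + 1 + 1)) ^ 2 =
        dist (y (i + 1)) (y (i + 1 + 1)) ^ 2 := by
    intro i _
    rw [Function.update_of_ne (by omega), Function.update_of_ne (by omega)]
  rw [Finset.sum_congr rfl h1, Function.update_self,
    Function.update_of_ne (show 0 + 1 ≠ 0 by omega)]
  simp only [zero_add]
  ring

theorem ch_top (k : ℕ) (y : ℕ → M) (m : M) :
    ch (k + 1) (Function.update y (k + 1) m) + dist (y k) (y (k + 1)) ^ 2 =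
      ch (k + 1) y + dist (y k) m ^ 2 := by
  unfold ch
  rw [Finset.sum_range_succ, Finset.sum_range_succ]
  have h1 : ∀ i ∈ Finset.range k,
      dist (Function.update y (k + 1) m i) (Function.update y (k + 1) m (i + 1)) ^ 2 =
        dist (y i) (y (i + 1)) ^ 2 := by
    intro i hi
    rw [Finset.mem_range] at hi
    rw [Function.update_of_ne (by omega), Function.update_of_ne (by omega)]
  rw [Finset.sum_congr rfl h1, Function.update_self,
    Function.update_of_ne (show k ≠ k + 1 by omega)]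
  ring

/-! ### Doubling -/

/-- A straight chain, orthogonal to the fixed points of `τ` at its end. -/
structure Half (τ : M → M) (y : ℕ → M) (n : ℕ) (δ : ℝ) : Prop where
  step : ∀ i, i < n → dist (y i) (y (i + 1)) = δ
  two : ∀ i, i + 2 ≤ n → dist (y i) (y (i + 2)) = 2 * δ
  right : τ (y n) = y n
  refln : dist (y (n - 1)) (τ (y (n - 1))) = 2 * δ

section
variable {σ τ : M → M} {y : ℕ → M} {n : ℕ} {δ : ℝ}

theorem Half.ge (H : Half τ y n δ) {i : ℕ} (h : n ≤ i) : Zc τ y n i = τ (y (2 * n - i)) := by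
  rcases h.eq_or_lt with rfl | h
  · rw [Zc_le le_rfl, show 2 * n - n = n by omega, H.right]
  · exact if_neg (by omega)

theorem Half.dstep (hτ : Isometry τ) (H : Half τ y n δ) {r : ℕ} (hr : r < 2 * n) :
    dist (Zc τ y n r) (Zc τ y n (r + 1)) = δ := by
  rcases lt_or_ge r n with h | h
  · rw [Zc_le h.le, Zc_le h, H.step r h]
  · rw [H.ge h, H.ge (by omega), hτ.dist_eq, dist_comm,
      show 2 * n - r = 2 * n - (r + 1) + 1 by omega, H.step _ (by omega)]

theorem Half.dtwo (hτ : Isometry τ) (H : Half τ y n δ) {r : ℕ} (hr : r + 2 ≤ 2 * n) :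
    dist (Zc τ y n r) (Zc τ y n (r + 2)) = 2 * δ := by
  rcases lt_or_ge n (r + 2) with h | h
  · rcases lt_or_ge r n with h1 | h1
    · rw [Zc_le h1.le, H.ge (by omega), show r = n - 1 by omega,
        show 2 * n - (n - 1 + 2) = n - 1 by omega, H.refln]
    · rw [H.ge h1, H.ge (by omega), hτ.dist_eq, dist_comm,
        show 2 * n - r = 2 * n - (r + 2) + 2 by omega, H.two _ (by omega)]
  · rw [Zc_le (by omega), Zc_le h, H.two r h]

/-- The doubled chain. -/
theorem Half.straight (hτ : Isometry τ) (H : Half τ y n δ) (hn : 1 ≤ n)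
    (hσσ : ∀ i, i ≤ n → σ (σ (y i)) = y i) (hc : ∀ i, i ≤ n → σ (τ (y i)) = τ (σ (y i)))
    (hc' : ∀ i, i ≤ n → σ (τ (σ (y i))) = τ (σ (σ (y i))))
    (h0 : σ (y 0) = y 0) (h1 : dist (y 1) (σ (y 1)) = 2 * δ) :
    Straight σ (Zc τ y n) (2 * n) δ where
  step i hi := H.dstep hτ hi
  two i hi := H.dtwo hτ hi
  inv i hi := by
    rcases le_total i n with h | h
    · rw [Zc_le h, hσσ i h]
    · rw [H.ge h, hc _ (by omega), hc' _ (by omega), hσσ _ (by omega)]
  left := by rw [Zc_le (Nat.zero_le n), h0]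
  right := by rw [H.ge (by omega), Nat.sub_self, hc 0 (Nat.zero_le n), h0]
  refl0 := by rw [Zc_le hn, h1]
  refln := by
    rw [H.ge (by omega), show 2 * n - (2 * n - 1) = 1 by omega, hc 1 hn, hτ.dist_eq, h1]

end

/-! ### The configuration -/

/-- Two parts `A`, `B` of the fixed point sets of commuting isometric involutions `σ`, `τ` of
`N`. -/
structure Conf (S : Segs M) (N A B : Set M) (σ τ : M → M) (r : ℝ) : Prop where
  iσ : Isometry σ
  iτ : Isometry τ
  cN : IsClosed N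
  cA : IsClosed A
  cB : IsClosed B
  seg : ∀ x ∈ N, ∀ y ∈ N, dist x y < S.ρ → ∀ t ∈ Icc (0 : ℝ) 1, S.seg x y t ∈ N
  AN : A ⊆ N
  BN : B ⊆ N
  disj : ∀ x ∈ A, x ∉ B
  σN : ∀ x ∈ N, σ x ∈ N
  τN : ∀ x ∈ N, τ x ∈ N
  σσ : ∀ x ∈ N, σ (σ x) = x
  ττ : ∀ x ∈ N, τ (τ x) = x
  comm : ∀ x ∈ N, σ (τ x) = τ (σ x)
  σA : ∀ x ∈ A, σ x = x
  τB : ∀ x ∈ B, τ x = x
  r_pos : 0 < r
  isoA : ∀ x ∈ A, ∀ y ∈ N, σ y = y → dist x y < r → y ∈ A
  isoB : ∀ x ∈ B, ∀ y ∈ N, τ y = y → dist x y < r → y ∈ B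

/-- Chains from `A` to `B` in `N`. -/
def Kc (N A B : Set M) (n : ℕ) : Set (ℕ → M) := {y | (∀ i, y i ∈ N) ∧ y 0 ∈ A ∧ y n ∈ B}

theorem real_mid {a b D : ℝ} (ha : 0 ≤ a) (hb : 0 ≤ b) (hD : 0 ≤ D) (h1 : D ≤ a + b)
    (h2 : a ^ 2 + b ^ 2 ≤ D ^ 2 / 2) : a = b ∧ D = 2 * a := by
  have h3 : (a - b) ^ 2 ≤ 0 := by nlinarith
  have h4 : a = b := by nlinarith [sq_nonneg (a - b)]
  subst h4
  refine ⟨rfl, le_antisymm (by linarith) ?_⟩
  exact le_of_sq_le_sq (by nlinarith) hD

theorem real_end {a D : ℝ} (ha : 0 ≤ a) (hD : 0 ≤ D) (h1 : D ≤ 2 * a)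
    (h2 : a ^ 2 ≤ (D / 2) ^ 2) : D = 2 * a := by
  refine le_antisymm h1 ?_
  exact le_of_sq_le_sq (by nlinarith) hD

section
variable {S : Segs M} {N A B : Set M} {σ τ : M → M} {r : ℝ}

theorem Segs.mid_fix (hσ : Isometry σ) {x : M} (hx : σ (σ x) = x) (h : dist x (σ x) < S.ρ) :
    σ (S.mid x (σ x)) = S.mid x (σ x) := by
  unfold Segs.mid
  rw [seg_nat S hσ h half_mem, hx]
  exact (S.mid_symm h).symm

theorem dist_refl_le (hσ : Isometry σ) {x y : M} (hx : σ x = x) : dist y (σ y) ≤ 2 * dist x y := by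
  have h1 := dist_triangle y x (σ y)
  have h2 : dist x (σ y) = dist x y := by
    conv_lhs => rw [← hx]
    exact hσ.dist_eq x y
  rw [h2, dist_comm y x] at h1
  linarith

theorem min_close (C : Conf S N A B σ τ r) {k : ℕ} {y : ℕ → M} (hy : y ∈ Kc N A B (k + 1))
    (hmin : ∀ z ∈ Kc N A B (k + 1), ch (k + 1) y ≤ ch (k + 1) z) {ε : ℝ} (hε : 0 < ε)
    (hsm : ch (k + 1) y < ε ^ 2) (hερ : 4 * ε ≤ S.ρ) (hεr : 4 * ε ≤ r) :
    ∃ (c : ℝ → M) (P : ℝ), 0 < P ∧ IsGeodesicWithSpeed c 1 ∧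
      Function.Periodic c P ∧ ∀ t, σ (c t) = c (-t) := by
  obtain ⟨hyN, hyA, hyB⟩ := hy
  have hd : ∀ i, i < k + 1 → dist (y i) (y (i + 1)) < ε := fun i hi =>
    lt_of_pow_lt_pow_left₀ 2 hε.le ((sq_le_ch hi y).trans_lt hsm)
  have hmid : ∀ j, j + 2 ≤ k + 1 → dist (y j) (y (j + 1)) = dist (y (j + 1)) (y (j + 2)) ∧
      dist (y j) (y (j + 2)) = 2 * dist (y j) (y (j + 1)) := by
    intro j hj
    have t1 := dist_triangle (y j) (y (j + 1)) (y (j + 2))
    have d1 := hd j (by omega)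
    have d2 : dist (y (j + 1)) (y (j + 2)) < ε := hd (j + 1) (by omega)
    have hρ : dist (y j) (y (j + 2)) < S.ρ := by linarith
    have hz := hmin (Function.update y (j + 1) (S.mid (y j) (y (j + 2)))) ⟨?_, ?_, ?_⟩
    · have e := ch_mid hj y (S.mid (y j) (y (j + 2)))
      rw [S.mid_dl hρ, S.mid_dr hρ] at e
      exact real_mid dist_nonneg dist_nonneg dist_nonneg t1 (by nlinarith)
    · intro i
      rcases eq_or_ne i (j + 1) with h | h
      · rw [h, Function.update_self]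
        exact C.seg _ (hyN _) _ (hyN _) hρ _ half_mem
      · rw [Function.update_of_ne h]; exact hyN i
    · rw [Function.update_of_ne (by omega)]; exact hyA
    · rw [Function.update_of_ne (by omega)]; exact hyB
  have h0 : dist (y 1) (σ (y 1)) = 2 * dist (y 0) (y 1) := by
    have t1 : dist (y 1) (σ (y 1)) ≤ 2 * dist (y 0) (y 1) := dist_refl_le C.iσ (C.σA _ hyA)
    have d1 : dist (y 0) (y 1) < ε := hd 0 (by omega)
    have hρ : dist (y 1) (σ (y 1)) < S.ρ := by linarith
    have hmN : S.mid (y 1) (σ (y 1)) ∈ N := C.seg _ (hyN _) _ (C.σN _ (hyN _)) hρ _ half_mem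
    have hmA : S.mid (y 1) (σ (y 1)) ∈ A := by
      refine C.isoA _ hyA _ hmN (Segs.mid_fix C.iσ (C.σσ _ (hyN 1)) hρ) ?_
      have t2 := dist_triangle (y 0) (y 1) (S.mid (y 1) (σ (y 1)))
      rw [S.mid_dl hρ] at t2
      linarith
    have hz := hmin (Function.update y 0 (S.mid (y 1) (σ (y 1)))) ⟨?_, ?_, ?_⟩
    · have e := ch_zero k y (S.mid (y 1) (σ (y 1)))
      rw [dist_comm (S.mid (y 1) (σ (y 1))) (y 1), S.mid_dl hρ] at e
      exact real_end dist_nonneg dist_nonneg t1 (by linarith)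
    · intro i
      rcases eq_or_ne i 0 with h | h
      · rw [h, Function.update_self]; exact hmN
      · rw [Function.update_of_ne h]; exact hyN i
    · rw [Function.update_self]; exact hmA
    · rw [Function.update_of_ne (by omega)]; exact hyB
  have hk : dist (y k) (τ (y k)) = 2 * dist (y k) (y (k + 1)) := by
    have t1 : dist (y k) (τ (y k)) ≤ 2 * dist (y k) (y (k + 1)) := by
      rw [dist_comm (y k) (y (k + 1))]
      exact dist_refl_le C.iτ (C.τB _ hyB)
    have d1 : dist (y k) (y (k + 1)) < ε := hd k (by omega)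
    have hρ : dist (y k) (τ (y k)) < S.ρ := by linarith
    have hmN : S.mid (y k) (τ (y k)) ∈ N := C.seg _ (hyN _) _ (C.τN _ (hyN _)) hρ _ half_mem
    have hmB : S.mid (y k) (τ (y k)) ∈ B := by
      refine C.isoB _ hyB _ hmN (Segs.mid_fix C.iτ (C.ττ _ (hyN k)) hρ) ?_
      have t2 := dist_triangle (y (k + 1)) (y k) (S.mid (y k) (τ (y k)))
      rw [S.mid_dl hρ, dist_comm (y (k + 1)) (y k)] at t2
      linarith
    have hz := hmin (Function.update y (k + 1) (S.mid (y k) (τ (y k)))) ⟨?_, ?_, ?_⟩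
    · have e := ch_top k y (S.mid (y k) (τ (y k)))
      rw [S.mid_dl hρ] at e
      exact real_end dist_nonneg dist_nonneg t1 (by linarith)
    · intro i
      rcases eq_or_ne i (k + 1) with h | h
      · rw [h, Function.update_self]; exact hmN
      · rw [Function.update_of_ne h]; exact hyN i
    · rw [Function.update_of_ne (by omega)]; exact hyA
    · rw [Function.update_self]; exact hmB
  have hst : ∀ i, i < k + 1 → dist (y i) (y (i + 1)) = dist (y 0) (y 1) := by
    intro i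
    induction i with
    | zero => intro _; rfl
    | succ i ih =>
      intro hi
      rw [← ih (by omega)]
      exact (hmid i (by omega)).1.symm
  have hpos : 0 < dist (y 0) (y 1) := by
    rw [dist_pos]
    intro h
    have h2 : ∀ i, i ≤ k + 1 → y i = y 0 := by
      intro i
      induction i with
      | zero => intro _; rfl
      | succ i ih =>
        intro hi
        have h3 := hst i (by omega)
        rw [h, dist_self, dist_eq_zero] at h3
        rw [← h3]
        exact ih (by omega)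
    have h3 := h2 (k + 1) le_rfl
    rw [h3] at hyB
    exact C.disj _ hyA hyB
  have H : Half τ y (k + 1) (dist (y 0) (y 1)) := by
    refine ⟨hst, fun i hi => ?_, C.τB _ hyB, ?_⟩
    · rw [(hmid i hi).2, hst i (by omega)]
    · rw [Nat.add_sub_cancel, hk, hst k (by omega)]
  have H2 := H.straight (σ := σ) C.iτ (by omega) (fun i _ => C.σσ _ (hyN i))
    (fun i _ => C.comm _ (hyN i)) (fun i _ => C.comm _ (C.σN _ (hyN i))) (C.σA _ hyA) h0
  have d1 : dist (y 0) (y 1) < ε := hd 0 (by omega)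
  exact close S (by omega) C.iσ H2 hpos (by linarith)

/-! ### Existence of short chains -/

theorem exists_short (C : Conf S N A B σ τ r) {a b : M} (ha : a ∈ A) (hb : b ∈ B)
    (hab : JoinedIn N a b) {η : ℝ} (hη : 0 < η) :
    ∃ k : ℕ, ∃ y ∈ Kc N A B (k + 1), ch (k + 1) y < η := by
  obtain ⟨γ, hγ⟩ := hab
  have huc : UniformContinuous γ := CompactSpace.uniformContinuous_of_continuous γ.continuous
  obtain ⟨δ, hδ, hu⟩ := Metric.uniformContinuous_iff.1 huc S.ρ S.ρ_pos
  obtain ⟨k, hk⟩ := exists_nat_one_div_lt hδ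
  set K : ℕ := k + 1 with hK
  have hKpos : (0 : ℝ) < (K : ℝ) := by positivity
  have hKd : 1 / (K : ℝ) < δ := by rw [hK]; push_cast; exact hk
  obtain ⟨w, hw⟩ : ∃ w : ℕ → M,
      w = fun i : ℕ => γ (projIcc 0 1 zero_le_one ((i : ℝ) / K)) := ⟨_, rfl⟩
  have hwN : ∀ i, w i ∈ N := fun i => by rw [hw]; exact hγ _
  have hw0 : w 0 = a := by
    rw [hw]
    simp only [Nat.cast_zero, zero_div]
    rw [projIcc_left]
    exact γ.source
  have hwK : w K = b := by
    rw [hw]
    simp only [div_self hKpos.ne']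
    rw [projIcc_right]
    exact γ.target
  have hws : ∀ i, dist (w i) (w (i + 1)) < S.ρ := by
    intro i
    rw [hw]
    refine hu ?_
    rw [Subtype.dist_eq, Real.dist_eq]
    refine (abs_projIcc_sub_projIcc _).trans_lt ?_
    push_cast
    rw [show (i : ℝ) / K - ((i : ℝ) + 1) / K = -(1 / K) by ring, abs_neg,
      abs_of_pos (by positivity)]
    exact hKd
  obtain ⟨R', hR'⟩ := exists_nat_gt ((K : ℝ) * S.ρ ^ 2 / η)
  set R : ℕ := R' + 1 with hR
  have hRpos : (0 : ℝ) < (R : ℝ) := by positivity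
  have hRn : 0 < R := by omega
  have hRlt : (K : ℝ) * S.ρ ^ 2 / η < R := by rw [hR]; push_cast; linarith
  obtain ⟨y, hy⟩ : ∃ y : ℕ → M, y = fun i : ℕ => S.seg (w (i / R)) (w (i / R + 1))
      (((i % R : ℕ) : ℝ) / R) := ⟨_, rfl⟩
  have hmem : ∀ i : ℕ, (((i % R : ℕ) : ℝ) / R) ∈ Icc (0 : ℝ) 1 := by
    intro i
    have h1 : ((i % R : ℕ) : ℝ) < R := by exact_mod_cast Nat.mod_lt i hRn
    exact ⟨by positivity, by rw [div_le_one hRpos]; exact h1.le⟩
  have hyv : ∀ q s : ℕ, s < R → y (s + R * q) = S.seg (w q) (w (q + 1)) ((s : ℝ) / R) := by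
    intro q s hs
    have h1 : (s + R * q) / R = q ∧ (s + R * q) % R = s :=
      (Nat.div_mod_unique hRn).2 ⟨by ring, hs⟩
    rw [hy]
    simp only [h1.1, h1.2]
  have hstep : ∀ i, dist (y i) (y (i + 1)) ≤ S.ρ / R := by
    intro i
    obtain ⟨q, s, hs, rfl⟩ : ∃ q s : ℕ, s < R ∧ i = s + R * q :=
      ⟨i / R, i % R, Nat.mod_lt i hRn, (Nat.mod_add_div i R).symm⟩
    have hsR : ((s : ℝ) / R) ∈ Icc (0 : ℝ) 1 := by
      have : (s : ℝ) < R := by exact_mod_cast hs
      exact ⟨by positivity, by rw [div_le_one hRpos]; exact this.le⟩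
    rcases lt_or_ge (s + 1) R with h | h
    · have hsR' : (((s + 1 : ℕ) : ℝ) / R) ∈ Icc (0 : ℝ) 1 := by
        have : ((s + 1 : ℕ) : ℝ) < R := by exact_mod_cast h
        exact ⟨by positivity, by rw [div_le_one hRpos]; exact this.le⟩
      rw [show s + R * q + 1 = (s + 1) + R * q by ring, hyv q s hs, hyv q (s + 1) h,
        S.dd _ _ (hws q) _ hsR _ hsR']
      have : |(s : ℝ) / R - ((s + 1 : ℕ) : ℝ) / R| = 1 / R := by
        push_cast
        rw [show (s : ℝ) / R - ((s : ℝ) + 1) / R = -(1 / R) by ring, abs_neg,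
          abs_of_pos (by positivity)]
      rw [this, div_mul_eq_mul_div, one_mul]
      exact div_le_div_of_nonneg_right (hws q).le hRpos.le
    · have hs1 : (s : ℝ) = R - 1 := by
        have : s + 1 = R := by omega
        rw [← this]; push_cast; ring
      have h2 := hyv (q + 1) 0 hRn
      rw [Nat.cast_zero, zero_div, S.seg_zero _ _ (hws _)] at h2
      rw [show s + R * q + 1 = 0 + R * (q + 1) by
        have : s + 1 = R := by omega
        rw [mul_add, mul_one]; omega, h2, hyv q s hs, S.dr (hws q) hsR, hs1]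
      have : 1 - ((R : ℝ) - 1) / R = 1 / R := by field_simp; ring
      rw [this, div_mul_eq_mul_div, one_mul]
      exact div_le_div_of_nonneg_right (hws q).le hRpos.le
  have hKR : 0 < K * R := by positivity
  obtain ⟨n, hn⟩ : ∃ n, n + 1 = K * R := ⟨K * R - 1, by omega⟩
  refine ⟨n, y, ⟨fun i => ?_, ?_, ?_⟩, ?_⟩
  · rw [hy]
    exact C.seg _ (hwN _) _ (hwN _) (hws _) _ (hmem i)
  · have h2 := hyv 0 0 hRn
    rw [Nat.cast_zero, zero_div, S.seg_zero _ _ (hws _), hw0, mul_zero, add_zero] at h2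
    rw [h2]; exact ha
  · have h2 := hyv K 0 hRn
    rw [Nat.cast_zero, zero_div, S.seg_zero _ _ (hws _), hwK, zero_add, mul_comm] at h2
    rw [hn, h2]; exact hb
  · have h1 : ch (n + 1) y ≤ ∑ i ∈ Finset.range (n + 1), (S.ρ / R) ^ 2 :=
      Finset.sum_le_sum fun i _ => pow_le_pow_left₀ dist_nonneg (hstep i) 2
    rw [Finset.sum_const, Finset.card_range, nsmul_eq_mul] at h1
    refine h1.trans_lt ?_
    rw [hn]
    push_cast
    have h3 : (K : ℝ) * R * (S.ρ / R) ^ 2 = K * S.ρ ^ 2 / R := by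
      field_simp
    rw [h3, div_lt_iff₀ hRpos]
    rw [div_lt_iff₀ hη] at hRlt
    linarith

/-- Two separate parts of the fixed point sets of commuting isometric involutions: some closed
geodesic is reversed. -/
theorem exists_reversed [CompactSpace M] (C : Conf S N A B σ τ r) {a b : M} (ha : a ∈ A)
    (hb : b ∈ B) (hab : JoinedIn N a b) :
    ∃ (c : ℝ → M) (P : ℝ), 0 < P ∧ IsGeodesicWithSpeed c 1 ∧
      Function.Periodic c P ∧ ∀ t, σ (c t) = c (-t) := by
  have hr := C.r_pos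
  have hρ := S.ρ_pos
  obtain ⟨ε, hε, h1, h2⟩ : ∃ ε : ℝ, 0 < ε ∧ 4 * ε ≤ S.ρ ∧ 4 * ε ≤ r :=
    ⟨min S.ρ r / 4, by positivity, by linarith [min_le_left S.ρ r],
      by linarith [min_le_right S.ρ r]⟩
  obtain ⟨k, y, hy, hsm⟩ := exists_short C ha hb hab (show 0 < ε ^ 2 by positivity)
  have hcl : IsClosed (Kc N A B (k + 1)) := by
    have e : Kc N A B (k + 1) = (⋂ i, (fun y : ℕ → M => y i) ⁻¹' N) ∩
        ((fun y : ℕ → M => y 0) ⁻¹' A ∩ (fun y : ℕ → M => y (k + 1)) ⁻¹' B) := by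
      ext z
      simp [Kc]
    rw [e]
    exact (isClosed_iInter fun i => C.cN.preimage (continuous_apply i)).inter
      ((C.cA.preimage (continuous_apply 0)).inter (C.cB.preimage (continuous_apply (k + 1))))
  obtain ⟨z, hz, hzm⟩ := hcl.isCompact.exists_isMinOn ⟨y, hy⟩ (ch_cont (k + 1)).continuousOn
  exact min_close C hz (fun w hw => hzm hw) hε ((hzm hy).trans_lt hsm) h1 h2

end

end Vale.Agent.P216.R2.H930
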